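import Mathlib

/-!
P315, multi-scale accounting theorem (simplified Part A of helper728), layer 0:
weighted leaves, nested partitions, conditional averages.  Plain Mathlib.
-/

open Finset

namespace Vale.Agent.P315.MS607

/-- a finite leaf set with positive weights of total mass one and nested partitions
(`q j x` is the name of the ancestor of the leaf `x` at level `j`) -/
structure Tr (X : Type*) [Fintype X] where
  mu : X → ℝ
  mu_pos : ∀ x, 0 < mu x
  mu_sum : ∑ x, mu x = 1
  q : ℕ → X → ℕ
  nest : ∀ j x y, q j x = q j y → q (j + 1) x = q (j + 1) y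

namespace Tr

variable {X : Type*} [Fintype X] (W : Tr X)

/-- expectation -/
noncomputable def E (f : X → ℝ) : ℝ := ∑ x, W.mu x * f x

/-- average over the leaves with the same ancestor at level `j` -/
noncomputable def avg (j : ℕ) (f : X → ℝ) (x : X) : ℝ :=
  (∑ y ∈ univ.filter (fun y => W.q j y = W.q j x), W.mu y * f y) /
    (∑ y ∈ univ.filter (fun y => W.q j y = W.q j x), W.mu y)

/-- `f` depends only on the ancestor at level `j` -/
def Meas (j : ℕ) (f : X → ℝ) : Prop := ∀ x y, W.q j x = W.q j y → f x = f y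

variable {W}

lemma nest_le {i j : ℕ} (h : i ≤ j) {x y : X} (hxy : W.q i x = W.q i y) : W.q j x = W.q j y := by
  induction j, h using Nat.le_induction with
  | base => exact hxy
  | succ k _ ih => exact W.nest k x y ih

lemma Meas.mono {i j : ℕ} (h : i ≤ j) {f : X → ℝ} (hf : W.Meas j f) : W.Meas i f :=
  fun x y hxy => hf x y (nest_le h hxy)

lemma Meas.mul {j : ℕ} {f g : X → ℝ} (hf : W.Meas j f) (hg : W.Meas j g) :
    W.Meas j (fun x => f x * g x) := fun x y h => by
  show f x * g x = f y * g y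
  rw [hf x y h, hg x y h]

lemma Meas.comp {j : ℕ} {f : X → ℝ} (hf : W.Meas j f) (g : ℝ → ℝ) :
    W.Meas j (fun x => g (f x)) := fun x y h => by
  show g (f x) = g (f y)
  rw [hf x y h]

lemma Meas.sub {j : ℕ} {f g : X → ℝ} (hf : W.Meas j f) (hg : W.Meas j g) :
    W.Meas j (fun x => f x - g x) := fun x y h => by
  show f x - g x = f y - g y
  rw [hf x y h, hg x y h]

lemma Meas.add {j : ℕ} {f g : X → ℝ} (hf : W.Meas j f) (hg : W.Meas j g) :
    W.Meas j (fun x => f x + g x) := fun x y h => by
  show f x + g x = f y + g y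
  rw [hf x y h, hg x y h]

lemma Meas.const {j : ℕ} (c : ℝ) : W.Meas j (fun _ => c) := fun _ _ _ => rfl

open Classical in
/-- indicators of class-invariant properties -/
lemma Meas.ite {j : ℕ} {P : X → Prop} (hP : ∀ x y, W.q j x = W.q j y → (P x ↔ P y)) :
    W.Meas j (fun x => if P x then (1 : ℝ) else 0) := fun x y h => by
  show (if P x then (1 : ℝ) else 0) = (if P y then (1 : ℝ) else 0)
  rw [if_congr (hP x y h) rfl rfl]

lemma E_add (f g : X → ℝ) : W.E (fun x => f x + g x) = W.E f + W.E g := by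
  simp only [E, mul_add, sum_add_distrib]

lemma E_sub (f g : X → ℝ) : W.E (fun x => f x - g x) = W.E f - W.E g := by
  simp only [E, mul_sub, sum_sub_distrib]

lemma E_const_mul (c : ℝ) (f : X → ℝ) : W.E (fun x => c * f x) = c * W.E f := by
  simp only [E, mul_sum]
  exact sum_congr rfl fun x _ => by ring

lemma E_sum {ι : Type*} (s : Finset ι) (f : ι → X → ℝ) :
    W.E (fun x => ∑ i ∈ s, f i x) = ∑ i ∈ s, W.E (f i) := by
  simp only [E, mul_sum]
  exact sum_comm

lemma E_mono {f g : X → ℝ} (h : ∀ x, f x ≤ g x) : W.E f ≤ W.E g :=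
  sum_le_sum fun x _ => mul_le_mul_of_nonneg_left (h x) (W.mu_pos x).le

lemma E_nonneg {f : X → ℝ} (h : ∀ x, 0 ≤ f x) : 0 ≤ W.E f :=
  sum_nonneg fun x _ => mul_nonneg (W.mu_pos x).le (h x)

lemma E_const (c : ℝ) : W.E (fun _ => c) = c := by
  simp only [E, ← sum_mul, W.mu_sum, one_mul]

lemma mass_pos (j : ℕ) (x : X) :
    0 < ∑ y ∈ univ.filter (fun y => W.q j y = W.q j x), W.mu y :=
  sum_pos (fun y _ => W.mu_pos y) ⟨x, by simp⟩

lemma avg_meas (j : ℕ) (f : X → ℝ) : W.Meas j (W.avg j f) := fun x y h => by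
  simp only [avg, h]

lemma avg_mono {j : ℕ} {f g : X → ℝ} (h : ∀ x, f x ≤ g x) (x : X) :
    W.avg j f x ≤ W.avg j g x :=
  div_le_div_of_nonneg_right
    (sum_le_sum fun y _ => mul_le_mul_of_nonneg_left (h y) (W.mu_pos y).le) (mass_pos j x).le

lemma avg_nonneg {j : ℕ} {f : X → ℝ} (h : ∀ x, 0 ≤ f x) (x : X) : 0 ≤ W.avg j f x :=
  div_nonneg (sum_nonneg fun y _ => mul_nonneg (W.mu_pos y).le (h y)) (mass_pos j x).le

lemma avg_add (j : ℕ) (f g : X → ℝ) (x : X) :
    W.avg j (fun y => f y + g y) x = W.avg j f x + W.avg j g x := by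
  simp only [avg, mul_add, sum_add_distrib, add_div]

lemma avg_sub (j : ℕ) (f g : X → ℝ) (x : X) :
    W.avg j (fun y => f y - g y) x = W.avg j f x - W.avg j g x := by
  simp only [avg, mul_sub, sum_sub_distrib, sub_div]

lemma avg_of_meas {j : ℕ} {f : X → ℝ} (hf : W.Meas j f) (x : X) : W.avg j f x = f x := by
  have h : ∑ y ∈ univ.filter (fun y => W.q j y = W.q j x), W.mu y * f y =
      (∑ y ∈ univ.filter (fun y => W.q j y = W.q j x), W.mu y) * f x := by
    rw [sum_mul]
    refine sum_congr rfl fun y hy => ?_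
    rw [hf y x (by simpa using hy)]
  rw [avg, h, mul_div_assoc, mul_comm, div_mul_cancel₀ _ (mass_pos j x).ne']

/-- pull-out property -/
lemma E_mul_avg {j : ℕ} {φ : X → ℝ} (hφ : W.Meas j φ) (f : X → ℝ) :
    W.E (fun x => φ x * W.avg j f x) = W.E (fun x => φ x * f x) := by
  classical
  have h1 : ∀ x, W.mu x * (φ x * W.avg j f x) =
      ∑ y, if W.q j y = W.q j x then
        W.mu x * (W.mu y * (φ y * f y)) /
          (∑ z ∈ univ.filter (fun z => W.q j z = W.q j y), W.mu z) else 0 := by
    intro x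
    rw [← sum_filter, avg, mul_div_assoc', mul_div_assoc', mul_sum, mul_sum, sum_div]
    refine sum_congr rfl fun y hy => ?_
    have hy' : W.q j y = W.q j x := by simpa using hy
    rw [hφ x y hy'.symm]
    have : (univ.filter fun z => W.q j z = W.q j y) = univ.filter fun z => W.q j z = W.q j x := by
      simp only [hy']
    rw [this]
    ring
  simp only [E]
  rw [sum_congr rfl fun x _ => h1 x, sum_comm]
  refine sum_congr rfl fun y _ => ?_
  have h2 : ∀ x, (if W.q j y = W.q j x then
        W.mu x * (W.mu y * (φ y * f y)) /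
          (∑ z ∈ univ.filter (fun z => W.q j z = W.q j y), W.mu z) else 0) =
      (if W.q j x = W.q j y then W.mu x else 0) * ((W.mu y * (φ y * f y)) /
          (∑ z ∈ univ.filter (fun z => W.q j z = W.q j y), W.mu z)) := by
    intro x
    by_cases h : W.q j y = W.q j x
    · rw [if_pos h, if_pos h.symm]; ring
    · rw [if_neg h, if_neg (fun h' => h h'.symm), zero_mul]
  rw [sum_congr rfl fun x _ => h2 x, ← sum_mul, ← sum_filter]
  exact mul_div_cancel₀ _ (mass_pos j y).ne'

lemma E_avg (j : ℕ) (f : X → ℝ) : W.E (W.avg j f) = W.E f := by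
  have := E_mul_avg (W := W) (j := j) (φ := fun _ => 1) (Meas.const 1) f
  simpa using this

/-- from the integrated to the pointwise inequality -/
lemma le_avg_of_E {j : ℕ} {f g : X → ℝ} (hf : W.Meas j f)
    (h : ∀ φ : X → ℝ, W.Meas j φ → (∀ x, 0 ≤ φ x) → W.E (fun x => φ x * f x) ≤
      W.E (fun x => φ x * g x)) (x : X) : f x ≤ W.avg j g x := by
  classical
  have h1 := h (fun y => if W.q j y = W.q j x then 1 else 0)
    (fun y z hyz => by
      show (if W.q j y = W.q j x then (1 : ℝ) else 0) = if W.q j z = W.q j x then (1 : ℝ) else 0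
      rw [hyz]) (fun y => by split <;> norm_num)
  have h2 : ∀ k : X → ℝ, W.E (fun y => (if W.q j y = W.q j x then (1 : ℝ) else 0) * k y) =
      ∑ y ∈ univ.filter (fun y => W.q j y = W.q j x), W.mu y * k y := by
    intro k
    rw [sum_filter]
    simp only [E]
    refine sum_congr rfl fun y _ => ?_
    split <;> simp
  rw [h2, h2] at h1
  rw [avg, le_div_iff₀ (mass_pos j x)]
  refine le_trans (le_of_eq ?_) h1
  rw [mul_comm, sum_mul]
  refine sum_congr rfl fun y hy => ?_
  rw [hf y x (by simpa using hy)]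

end Tr

/-- splitting a range into blocks -/
lemma sum_range_mul' (a b : ℕ) (f : ℕ → ℝ) :
    ∑ t ∈ range (a * b), f t = ∑ r ∈ range a, ∑ i ∈ range b, f (r * b + i) := by
  induction a with
  | zero => simp
  | succ a ih => rw [Nat.succ_mul, sum_range_add, ih, sum_range_succ]

/-- telescoping over a block of consecutive cells -/
lemma sum_cells (F : ℕ → ℝ) (u K : ℕ) :
    ∑ r ∈ range K, (F (u + r) - F (u + r + 1)) = F u - F (u + K) := by
  induction K with
  | zero => simp
  | succ K ih => rw [sum_range_succ, ih]; ring_nf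

end Vale.Agent.P315.MS607
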