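import Vale.Agent.P315.MS607.Split

/-!
P315, multi-scale accounting theorem, layer 3: steps 2, 3 and 4 of helper728's note.
-/

open Finset

namespace Vale.Agent.P315.MS607

variable {X : Type*} [Fintype X] {W : Tr X} (C : Cv W) (P : Gr)

lemma bot_le_top (s a : ℕ) : a * 2 ^ s ≤ top s a := by
  unfold top; rw [Nat.succ_mul]; exact Nat.le_add_right _ _

lemma meas_box {s t : ℕ} (h : s ≤ t) (a m : ℕ) :
    W.Meas (top s a) (fun x => nuB C P t m (top t (a / 2 ^ (t - s))) x) :=
  (meas_nuB C P t m _).mono (top_le h a)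

lemma Tinf_le {th : ℕ → ℝ} (h0 : 0 ≤ th P.S) :
    Tinf C P th ≤ P.n * P.Q * th P.S + 2 ^ P.S * GB0 C P P.S := by
  have h := group_le C P (le_refl P.S) (fun a m x => ind (¬ th P.S ≤ nuB C P P.S m (top P.S a) x))
    (fun a m => meas_ind fun x y hxy => by rw [meas_nuB C P P.S m (top P.S a) x y hxy])
    (fun a m x => ind_nonneg _)
  refine le_trans h ?_
  calc _ ≤ ∑ a ∈ range (P.na P.S), ∑ m ∈ range (P.nb P.S), ((2 : ℝ) ^ P.S * th P.S +
          (2 : ℝ) ^ P.S * W.E (fun x => C.G (a * 2 ^ P.S) (top P.S a) x (P.b P.S m))) := by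
        refine sum_le_sum fun a _ => sum_le_sum fun m _ => ?_
        rw [← mul_add]
        refine mul_le_mul_of_nonneg_left ?_ (by positivity)
        rw [← Tr.E_const (W := W) (th P.S), ← Tr.E_add]
        refine Tr.E_mono fun x => ?_
        have hG : 0 ≤ C.G (a * 2 ^ P.S) (top P.S a) x (P.b P.S m) :=
          C.G_nonneg (bot_le_top _ _) x _
        rw [Tr.E_const]
        by_cases hc : th P.S ≤ nuB C P P.S m (top P.S a) x
        · rw [ind_neg (not_not.2 hc), zero_mul]; linarith
        · rw [ind_pos hc, one_mul]; linarith [not_le.1 hc]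
    _ = _ := by
        simp only [sum_add_distrib, ← mul_sum, sum_G_b0 C P le_rfl, sum_const, card_range,
          nsmul_eq_mul]
        simp only [Gr.na, Gr.nb, Gr.n, Nat.sub_self, pow_zero, mul_one]
        push_cast
        ring

lemma T3_le {th th' : ℕ → ℝ} {ep : ℝ} {s : ℕ} (hs : s < P.S) (h0 : 0 ≤ th s) (hep : 0 ≤ ep)
    (h1 : 16 * th s ≤ ep * th' (s + 1)) :
    T3 C P th th' s ≤ ep * P.n + 2 ^ s * GB0 C P s := by
  have hs' : s + 1 ≤ P.S := hs
  set ψ : ℕ → ℕ → X → ℝ := fun a m x => ind (¬ nuB C P (s + 1) m (top (s + 1) a) x ≤ th' (s + 1))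
    with hψ
  have hd : (s + 1) - s = 1 := by omega
  have mψ : ∀ a m, W.Meas (top s a) (ψ (a / 2) m) := fun a m => by
    refine meas_ind fun x y hxy => ?_
    have h2 := meas_box C P (Nat.le_succ s) a m x y hxy
    simp only [Nat.succ_eq_add_one, hd, pow_one] at h2
    rw [h2]
  have h := group_le C P hs.le
    (fun a m x => ind (¬ th s ≤ nuB C P s m (top s a) x) * ψ (a / 2) (m / 16) x)
    (fun a m => (meas_ind fun x y hxy => by rw [meas_nuB C P s m (top s a) x y hxy]).mul
      (mψ a _)) (fun a m x => mul_nonneg (ind_nonneg _) (ind_nonneg _))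
  have e0 : T3 C P th th' s = ∑ j ∈ range P.n, ∑ m ∈ range (P.nb 0),
      W.E (fun x => ind (¬ th s ≤ nuB C P s (m / 16 ^ s) (top s (j / 2 ^ s)) x) *
        ψ (j / 2 ^ s / 2) (m / 16 ^ s / 16) x * nuB C P 0 m j x) := by
    simp only [T3, nuT, hψ, div_two, div_sixteen]
  rw [e0]
  refine le_trans h ?_
  calc _ ≤ ∑ a ∈ range (P.na s), ∑ m ∈ range (P.nb s),
        ((2 : ℝ) ^ s * th s * W.E (ψ (a / 2) (m / 16)) +
          (2 : ℝ) ^ s * W.E (fun x => C.G (a * 2 ^ s) (top s a) x (P.b s m))) := by
        refine sum_le_sum fun a _ => sum_le_sum fun m _ => ?_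
        rw [mul_assoc, ← mul_add]
        refine mul_le_mul_of_nonneg_left ?_ (by positivity)
        rw [← Tr.E_const_mul, ← Tr.E_add]
        refine Tr.E_mono fun x => ?_
        have hG : 0 ≤ C.G (a * 2 ^ s) (top s a) x (P.b s m) :=
          C.G_nonneg (bot_le_top _ _) x _
        have p0 : 0 ≤ ψ (a / 2) (m / 16) x := ind_nonneg _
        have p1 : ψ (a / 2) (m / 16) x ≤ 1 := ind_le_one _
        by_cases hc : th s ≤ nuB C P s m (top s a) x
        · rw [ind_neg (not_not.2 hc), zero_mul, zero_mul]
          have := mul_nonneg h0 p0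
          linarith
        · rw [ind_pos hc, one_mul]
          have hv := not_le.1 hc
          nlinarith [mul_nonneg p0 (sub_nonneg.2 hv.le), mul_nonneg hG (sub_nonneg.2 p1)]
    _ = (∑ a ∈ range (P.na (s + 1)), ∑ m ∈ range (P.nb (s + 1)),
          (2 : ℝ) ^ (s + 1) * (16 * th s) * W.E (ψ a m)) + 2 ^ s * GB0 C P s := by
        simp only [sum_add_distrib]
        congr 1
        · have hA : P.na s = P.na (s + 1) * 2 := by
            rw [← P.na_mul' (Nat.le_succ s) hs', Nat.succ_eq_add_one, hd, pow_one]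
          have hB : P.nb s = P.nb (s + 1) * 16 := by
            rw [← P.nb_mul' (Nat.le_succ s) hs', Nat.succ_eq_add_one, hd, pow_one]
          rw [hA, sum_range_mul']
          refine sum_congr rfl fun a _ => ?_
          have h3 : ∀ i ∈ range 2, ∑ m ∈ range (P.nb s),
              (2 : ℝ) ^ s * th s * W.E (ψ ((a * 2 + i) / 2) (m / 16)) =
              ∑ m ∈ range (P.nb (s + 1)), 16 * ((2 : ℝ) ^ s * th s * W.E (ψ a m)) := by
            intro i hi
            have hi' : i < 2 := mem_range.1 hi
            have ha : (a * 2 + i) / 2 = a := by omega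
            rw [ha, hB, sum_range_mul']
            refine sum_congr rfl fun m _ => ?_
            have h4 : ∀ r ∈ range 16, (2 : ℝ) ^ s * th s * W.E (ψ a ((m * 16 + r) / 16)) =
                (2 : ℝ) ^ s * th s * W.E (ψ a m) := by
              intro r hr
              have hr' : r < 16 := mem_range.1 hr
              have hm : (m * 16 + r) / 16 = m := by omega
              rw [hm]
            rw [sum_congr rfl h4, sum_const, card_range, nsmul_eq_mul]
            norm_num
          rw [sum_congr rfl h3, sum_const, card_range, nsmul_eq_mul, mul_sum]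
          refine sum_congr rfl fun m _ => ?_
          rw [pow_succ]
          push_cast
          ring
        · simp only [← mul_sum, sum_G_b0 C P hs.le]
    _ ≤ _ := by
        refine add_le_add_left ?_ _
        calc _ ≤ ∑ a ∈ range (P.na (s + 1)), ∑ m ∈ range (P.nb (s + 1)),
              (2 : ℝ) ^ (s + 1) * ep * W.E (nuB C P (s + 1) m (top (s + 1) a)) := by
              refine sum_le_sum fun a _ => sum_le_sum fun m _ => ?_
              have e3 : 16 * th s * W.E (ψ a m) ≤
                  ep * W.E (nuB C P (s + 1) m (top (s + 1) a)) := by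
                have e1 : 16 * th s * W.E (ψ a m) ≤ ep * th' (s + 1) * W.E (ψ a m) :=
                  mul_le_mul_of_nonneg_right h1
                    (Tr.E_nonneg (W := W) (f := ψ a m) fun x => ind_nonneg _)
                refine e1.trans ?_
                rw [mul_assoc]
                refine mul_le_mul_of_nonneg_left ?_ hep
                rw [← Tr.E_const_mul]
                refine Tr.E_mono fun x => ?_
                simp only [hψ]
                by_cases hc : nuB C P (s + 1) m (top (s + 1) a) x ≤ th' (s + 1)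
                · rw [ind_neg (not_not.2 hc), mul_zero]; exact nuB_nonneg C P _ _ _ _
                · rw [ind_pos hc, mul_one]; exact (not_le.1 hc).le
              have e4 := mul_le_mul_of_nonneg_left e3 (by positivity : (0 : ℝ) ≤ 2 ^ (s + 1))
              calc _ = (2 : ℝ) ^ (s + 1) * (16 * th s * W.E (ψ a m)) := by ring
                _ ≤ _ := e4
                _ = _ := by ring
          _ ≤ ∑ _a ∈ range (P.na (s + 1)), (2 : ℝ) ^ (s + 1) * ep := by
              refine sum_le_sum fun a _ => ?_
              rw [← mul_sum]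
              have := E_sum_blocks_le C P (s := s + 1) (top (s + 1) a) (P.nb (s + 1))
              have h5 : 0 ≤ (2 : ℝ) ^ (s + 1) * ep := by positivity
              nlinarith
          _ = _ := by
              rw [sum_const, card_range, nsmul_eq_mul]
              have := P.na_mul hs'
              have h6 : ((P.na (s + 1) : ℕ) : ℝ) * 2 ^ (s + 1) = (P.n : ℕ) := by
                rw [← this]; push_cast; rfl
              rw [← mul_assoc, h6]
              ring

/-- drop of the average of the units over a block -/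
noncomputable def rho (s a m : ℕ) (x : X) : ℝ :=
  C.V (a * 2 ^ s) (top s a) x (P.b s m) - C.V (a * 2 ^ s) (top s a) x (P.b s (m + 1))

/-- gain at the first index of the block -/
noncomputable def G0 (s a m : ℕ) (x : X) : ℝ := C.G (a * 2 ^ s) (top s a) x (P.b s m)

/-- gain at the end of the block -/
noncomputable def G1 (s a m : ℕ) (x : X) : ℝ := C.G (a * 2 ^ s) (top s a) x (P.b s (m + 1))

lemma G0_nonneg (s a m : ℕ) (x : X) : 0 ≤ G0 C P s a m x := C.G_nonneg (bot_le_top s a) x _
lemma G1_nonneg (s a m : ℕ) (x : X) : 0 ≤ G1 C P s a m x := C.G_nonneg (bot_le_top s a) x _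
lemma rho_nonneg (s a m : ℕ) (x : X) : 0 ≤ rho C P s a m x :=
  sub_nonneg.2 (C.V_anti _ _ x (P.b_le s m))

lemma rho_eq (s a m : ℕ) (x : X) :
    rho C P s a m x = nuB C P s m (top s a) x + G0 C P s a m x - G1 C P s a m x := by
  simp only [rho, nuB, Cv.nu, G0, G1, Cv.G]
  ring

lemma meas_G0 (s a m : ℕ) : W.Meas (top s a) (G0 C P s a m) := C.meas_G _ _ _
lemma meas_G1 (s a m : ℕ) : W.Meas (top s a) (G1 C P s a m) := C.meas_G _ _ _
lemma meas_rho (s a m : ℕ) : W.Meas (top s a) (rho C P s a m) :=
  (C.meas_V _ _ _).sub (C.meas_V _ _ _)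

lemma T4_le {th th' : ℕ → ℝ} {s : ℕ} (hs : s ≤ P.S) :
    T4 C P th th' s ≤ 2 ^ s * (∑ a ∈ range (P.na s), ∑ m ∈ range (P.nb s),
      W.E (fun x => ind (th s ≤ nuB C P s m (top s a) x ∧ nuB C P s m (top s a) x ≤ th' s) *
        rho C P s a m x)) + 2 ^ s * GB1 C P s := by
  have h := group_le C P hs
    (fun a m x => ind (th s ≤ nuB C P s m (top s a) x ∧ nuB C P s m (top s a) x ≤ th' s))
    (fun a m => meas_ind fun x y hxy => by rw [meas_nuB C P s m (top s a) x y hxy])
    (fun a m x => ind_nonneg _)
  refine le_trans h ?_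
  rw [← sum_G_b1 C P hs, mul_sum, mul_sum, ← sum_add_distrib]
  refine sum_le_sum fun a _ => ?_
  rw [mul_sum, mul_sum, ← sum_add_distrib]
  refine sum_le_sum fun m _ => ?_
  rw [← mul_add]
  refine mul_le_mul_of_nonneg_left ?_ (by positivity)
  rw [← Tr.E_add]
  refine Tr.E_mono fun x => ?_
  have h1 : nuB C P s m (top s a) x + C.G (a * 2 ^ s) (top s a) x (P.b s m) =
      rho C P s a m x + G1 C P s a m x := by
    rw [rho_eq]; simp only [G0]; ring
  rw [h1, mul_add]
  have g1 := G1_nonneg C P s a m x
  have i1 := ind_le_one (th s ≤ nuB C P s m (top s a) x ∧ nuB C P s m (top s a) x ≤ th' s)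
  have : G1 C P s a m x = C.G (a * 2 ^ s) (top s a) x (P.b s (m + 1)) := rfl
  rw [← this]
  nlinarith

end Vale.Agent.P315.MS607
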