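import Vale.Agent.P315.MS607.Base

/-!
P315, multi-scale accounting theorem, layer 1: curves on the tree, block grids,
the blow-up lemma (F3') of helper728.
-/

open Finset

namespace Vale.Agent.P315.MS607

variable {X : Type*} [Fintype X]

/-- the curves `e j x b` of the ancestor at level `j` of the leaf `x`, index `b` -/
structure Cv (W : Tr X) where
  e : ℕ → X → ℕ → ℝ
  meas : ∀ j b, W.Meas j (fun x => e j x b)
  anti : ∀ j x, Antitone (e j x)
  nn : ∀ j x b, 0 ≤ e j x b
  le1 : ∀ j x b, e j x b ≤ 1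
  h1 : ∀ j x b, e (j + 1) x b ≤ W.avg (j + 1) (fun y => e j y b) x

namespace Cv

variable {W : Tr X} (C : Cv W)

/-- integrated monotonicity in the level -/
lemma chain {i j : ℕ} (hij : i ≤ j) (b : ℕ) {φ : X → ℝ} (hφ : W.Meas j φ) (h0 : ∀ x, 0 ≤ φ x) :
    W.E (fun x => φ x * C.e j x b) ≤ W.E (fun x => φ x * C.e i x b) := by
  induction j, hij using Nat.le_induction with
  | base => exact le_rfl
  | succ k _ ih =>
    refine le_trans ?_ (ih (hφ.mono (Nat.le_succ k)))
    rw [← Tr.E_mul_avg hφ (fun x => C.e k x b)]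
    exact Tr.E_mono fun x => mul_le_mul_of_nonneg_left (C.h1 k x b) (h0 x)

/-- one-level gain -/
noncomputable def g (j : ℕ) (x : X) (b : ℕ) : ℝ := W.avg (j + 1) (fun y => C.e j y b) x - C.e (j + 1) x b

lemma g_nonneg (j : ℕ) (x : X) (b : ℕ) : 0 ≤ C.g j x b := sub_nonneg.2 (C.h1 j x b)

lemma E_mul_g {j : ℕ} (b : ℕ) {φ : X → ℝ} (hφ : W.Meas (j + 1) φ) :
    W.E (fun x => φ x * C.g j x b) =
      W.E (fun x => φ x * C.e j x b) - W.E (fun x => φ x * C.e (j + 1) x b) := by
  rw [← Tr.E_mul_avg hφ (fun x => C.e j x b), ← Tr.E_sub]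
  congr 1
  funext x
  simp only [g]
  ring

/-- average of the curve at level `i`, seen from level `j` -/
noncomputable def V (i j : ℕ) (x : X) (b : ℕ) : ℝ := W.avg j (fun y => C.e i y b) x

/-- gain between level `i` and level `j` -/
noncomputable def G (i j : ℕ) (x : X) (b : ℕ) : ℝ := C.V i j x b - C.e j x b

lemma meas_V (i j b : ℕ) : W.Meas j (fun x => C.V i j x b) := Tr.avg_meas j _

lemma meas_G (i j b : ℕ) : W.Meas j (fun x => C.G i j x b) := (C.meas_V i j b).sub (C.meas j b)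

lemma G_nonneg {i j : ℕ} (h : i ≤ j) (x : X) (b : ℕ) : 0 ≤ C.G i j x b :=
  sub_nonneg.2 (Tr.le_avg_of_E (C.meas j b) (fun _ hφ h0 => C.chain h b hφ h0) x)

lemma V_anti (i j : ℕ) (x : X) {b c : ℕ} (h : b ≤ c) : C.V i j x c ≤ C.V i j x b :=
  Tr.avg_mono (fun y => C.anti i y h) x

lemma E_mul_V (i j b : ℕ) {φ : X → ℝ} (hφ : W.Meas j φ) :
    W.E (fun x => φ x * C.V i j x b) = W.E (fun x => φ x * C.e i x b) :=
  Tr.E_mul_avg hφ _

lemma E_mul_G (i j b : ℕ) {φ : X → ℝ} (hφ : W.Meas j φ) :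
    W.E (fun x => φ x * C.G i j x b) =
      W.E (fun x => φ x * C.e i x b) - W.E (fun x => φ x * C.e j x b) := by
  rw [← C.E_mul_V i j b hφ, ← Tr.E_sub]
  congr 1
  funext x
  simp only [G]
  ring

lemma E_G (i j b : ℕ) : W.E (fun x => C.G i j x b) =
    W.E (fun x => C.e i x b) - W.E (fun x => C.e j x b) := by
  have := C.E_mul_G i j b (φ := fun _ => 1) (Tr.Meas.const 1)
  simpa using this

/-- drop of the curve over `[u, v)` -/
noncomputable def nu (j : ℕ) (x : X) (u v : ℕ) : ℝ := C.e j x u - C.e j x v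

lemma nu_nonneg (j : ℕ) (x : X) {u v : ℕ} (h : u ≤ v) : 0 ≤ C.nu j x u v :=
  sub_nonneg.2 (C.anti j x h)

lemma meas_nu (j u v : ℕ) : W.Meas j (fun x => C.nu j x u v) := (C.meas j u).sub (C.meas j v)

open Classical in
/-- restriction to a class-invariant event loses at most the gains (Jensen for `(y-c)^+`) -/
lemma blow_mono {i j : ℕ} (h : i ≤ j) (u v : ℕ) (c : ℝ) {ψ : X → ℝ} (hψ : W.Meas j ψ)
    (h0 : ∀ x, 0 ≤ ψ x) (h1 : ∀ x, ψ x ≤ 1) :
    W.E (fun x => ψ x * max (C.nu j x u v - c) 0) ≤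
      W.E (fun x => ψ x * max (C.nu i x u v - c) 0) +
        (W.E (fun x => C.e i x v) - W.E (fun x => C.e j x v)) := by
  set ind : X → ℝ := fun x => if c < C.nu j x u v then (1 : ℝ) else 0 with hind
  have mind : W.Meas j ind := Tr.Meas.ite fun x y hxy => by
    have := C.meas_nu j u v x y hxy
    simp only at this
    rw [this]
  have ind0 : ∀ x, 0 ≤ ind x := fun x => by simp only [hind]; split <;> norm_num
  have ind1 : ∀ x, ind x ≤ 1 := fun x => by simp only [hind]; split <;> norm_num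
  set φ : X → ℝ := fun x => ψ x * ind x with hφ
  have mφ : W.Meas j φ := hψ.mul mind
  have φ0 : ∀ x, 0 ≤ φ x := fun x => mul_nonneg (h0 x) (ind0 x)
  have φ1 : ∀ x, φ x ≤ 1 := fun x => by
    have := mul_le_mul (h1 x) (ind1 x) (ind0 x) zero_le_one
    simpa [hφ] using this
  -- lower bound of the right-hand side
  have e1 : W.E (fun x => φ x * (C.nu i x u v - c)) ≤
      W.E (fun x => ψ x * max (C.nu i x u v - c) 0) := by
    refine Tr.E_mono fun x => ?_
    simp only [hφ, hind]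
    split
    · rw [mul_one]; exact mul_le_mul_of_nonneg_left (le_max_left _ _) (h0 x)
    · rw [mul_zero, zero_mul]; exact mul_nonneg (h0 x) (le_max_right _ _)
  have e2 : W.E (fun x => ψ x * max (C.nu j x u v - c) 0) =
      W.E (fun x => φ x * (C.nu j x u v - c)) := by
    congr 1
    funext x
    simp only [hφ, hind]
    split
    · rename_i hc; rw [max_eq_left (by linarith), mul_one]
    · rename_i hc; rw [max_eq_right (by linarith [not_lt.1 hc]), mul_zero, zero_mul]
  have ex : ∀ k : ℕ, W.E (fun x => φ x * (C.nu k x u v - c)) =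
      W.E (fun x => φ x * C.e k x u) - W.E (fun x => φ x * C.e k x v) - c * W.E φ := by
    intro k
    rw [← Tr.E_const_mul, ← Tr.E_sub, ← Tr.E_sub]
    congr 1
    funext x
    simp only [nu]
    ring
  have c1 := C.chain h u mφ φ0
  -- the gain at `v`
  have c2 : W.E (fun x => (1 - φ x) * C.e j x v) ≤ W.E (fun x => (1 - φ x) * C.e i x v) :=
    C.chain h v ((Tr.Meas.const 1).sub mφ) fun x => by linarith [φ1 x]
  have c3 : ∀ k : ℕ, W.E (fun x => (1 - φ x) * C.e k x v) =
      W.E (fun x => C.e k x v) - W.E (fun x => φ x * C.e k x v) := by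
    intro k
    rw [← Tr.E_sub]
    congr 1
    funext x
    ring
  rw [c3, c3] at c2
  rw [e2]
  refine le_trans ?_ (add_le_add_left e1 _)
  rw [ex, ex]
  linarith

end Cv

/-- parameters of the block grids: `S` scales, `Q` blocks of the largest scale, first index `o` -/
structure Gr where
  S : ℕ
  Q : ℕ
  D0 : ℕ
  Nn : ℕ
  o : ℕ

namespace Gr

variable (P : Gr)

def D (s : ℕ) : ℕ := P.D0 * 16 ^ s
def nb (s : ℕ) : ℕ := P.Q * 16 ^ (P.S - s)
def na (s : ℕ) : ℕ := P.Nn * 2 ^ (P.S - s)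
def n : ℕ := P.Nn * 2 ^ P.S
/-- first index of block `m` of scale `s` -/
def b (s m : ℕ) : ℕ := P.o + m * P.D s

lemma na_mul {s : ℕ} (h : s ≤ P.S) : P.na s * 2 ^ s = P.n := by
  rw [na, n, mul_assoc, ← pow_add, Nat.sub_add_cancel h]

lemma nb_mul {s : ℕ} (h : s ≤ P.S) : P.nb s * 16 ^ s = P.nb 0 := by
  rw [nb, nb, mul_assoc, ← pow_add, Nat.sub_add_cancel h, Nat.sub_zero]

lemma na_mul' {s t : ℕ} (hst : s ≤ t) (h : t ≤ P.S) : P.na t * 2 ^ (t - s) = P.na s := by
  rw [na, na, mul_assoc, ← pow_add]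
  congr 2
  omega

lemma nb_mul' {s t : ℕ} (hst : s ≤ t) (h : t ≤ P.S) : P.nb t * 16 ^ (t - s) = P.nb s := by
  rw [nb, nb, mul_assoc, ← pow_add]
  congr 2
  omega

lemma b_le (s m : ℕ) : P.b s m ≤ P.b s (m + 1) := by
  unfold b
  have : m * P.D s ≤ (m + 1) * P.D s := Nat.mul_le_mul_right _ (Nat.le_succ m)
  omega

lemma b_sub {s t : ℕ} (hst : s ≤ t) (m r : ℕ) :
    P.b s (m * 16 ^ (t - s) + r) = P.b t m + r * P.D s := by
  unfold b D
  have : (16 : ℕ) ^ t = 16 ^ (t - s) * 16 ^ s := by rw [← pow_add, Nat.sub_add_cancel hst]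
  rw [this]
  ring

end Gr

section

variable {W : Tr X} (C : Cv W) (P : Gr)

/-- drop over block `m` of scale `s` at level `j` -/
noncomputable def nuB (s m j : ℕ) (x : X) : ℝ := C.nu j x (P.b s m) (P.b s (m + 1))

lemma nuB_nonneg (s m j : ℕ) (x : X) : 0 ≤ nuB C P s m j x := C.nu_nonneg j x (P.b_le s m)

lemma meas_nuB (s m j : ℕ) : W.Meas j (nuB C P s m j) := C.meas_nu j _ _

/-- sub-blocks of scale `s` inside a block of scale `t` -/
lemma sum_sub_blocks {s t : ℕ} (hst : s ≤ t) (m j : ℕ) (x : X) :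
    ∑ r ∈ range (16 ^ (t - s)), nuB C P s (m * 16 ^ (t - s) + r) j x = nuB C P t m j x := by
  have h : ∀ r, nuB C P s (m * 16 ^ (t - s) + r) j x =
      (fun k => C.e j x (P.b t m + k * P.D s)) (0 + r) -
        (fun k => C.e j x (P.b t m + k * P.D s)) (0 + r + 1) := by
    intro r
    simp only [nuB, Cv.nu, P.b_sub hst, add_assoc, zero_add]
  refine (sum_congr rfl fun r _ => h r).trans
    ((sum_cells (fun k => C.e j x (P.b t m + k * P.D s)) 0 (16 ^ (t - s))).trans ?_)
  simp only [nuB, Cv.nu, zero_add, zero_mul, add_zero]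
  congr 2
  have := P.b_sub hst m (16 ^ (t - s))
  rw [← this]
  have h3 : m * 16 ^ (t - s) + 16 ^ (t - s) = (m + 1) * 16 ^ (t - s) + 0 := by ring
  rw [h3, P.b_sub hst]
  simp

lemma sum_blocks_le {s : ℕ} (j : ℕ) (x : X) (N : ℕ) :
    ∑ m ∈ range N, nuB C P s m j x ≤ 1 := by
  have h : ∀ r, nuB C P s r j x =
      (fun k => C.e j x (P.b s k)) (0 + r) - (fun k => C.e j x (P.b s k)) (0 + r + 1) := by
    intro r
    simp only [nuB, Cv.nu, zero_add]
  refine ((sum_congr rfl fun r _ => h r).trans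
    (sum_cells (fun k => C.e j x (P.b s k)) 0 N)).le.trans ?_
  have h1 := C.le1 j x (P.b s 0)
  have h2 := C.nn j x (P.b s (0 + N))
  linarith

lemma E_sum_blocks_le {s : ℕ} (j N : ℕ) :
    ∑ m ∈ range N, W.E (nuB C P s m j) ≤ 1 := by
  rw [← Tr.E_sum]
  calc W.E (fun x => ∑ m ∈ range N, nuB C P s m j x) ≤ W.E (fun _ => (1 : ℝ)) :=
        Tr.E_mono fun x => sum_blocks_le C P j x N
    _ = 1 := Tr.E_const 1

/-- total gain at one index -/
noncomputable def gam (b : ℕ) : ℝ := W.E (fun x => C.e 0 x b) - W.E (fun x => C.e P.n x b)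

lemma sum_lev (F : ℕ → ℝ) (K N : ℕ) :
    ∑ a ∈ range N, (F (a * K) - F ((a + 1) * K)) = F 0 - F (N * K) := by
  have := sum_cells (fun a => F (a * K)) 0 N
  simpa using this

lemma sum_E_G {s : ℕ} (h : s ≤ P.S) (b : ℕ) :
    ∑ a ∈ range (P.na s), W.E (fun x => C.G (a * 2 ^ s) ((a + 1) * 2 ^ s) x b) = gam C P b := by
  simp only [C.E_G]
  rw [sum_lev (fun k => W.E (fun x => C.e k x b)), P.na_mul h]
  rfl

lemma gam_nonneg (b : ℕ) : 0 ≤ gam C P b := by
  have := C.chain (Nat.zero_le P.n) b (φ := fun _ => 1) (Tr.Meas.const 1) (fun _ => zero_le_one)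
  simp only [one_mul] at this
  exact sub_nonneg.2 this

open Classical in
/-- **blow-up lemma** (F3') -/
lemma blow {t k : ℕ} (ht : t ≤ P.S) (hk : k ≤ 2 ^ t) {c : ℝ} (hc : 0 ≤ c) :
    ∑ a ∈ range (P.na t), ∑ m ∈ range (P.nb t),
      W.E (fun x => (if nuB C P t m ((a + 1) * 2 ^ t) x ≤ c then (1 : ℝ) else 0) *
        max (nuB C P t m ((a + 1) * 2 ^ t - k) x - c) 0) ≤
      1 + ∑ m ∈ range (P.nb t), gam C P (P.b t (m + 1)) := by
  have key : ∀ a m, W.E (fun x => (if nuB C P t m ((a + 1) * 2 ^ t) x ≤ c then (1 : ℝ) else 0) *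
        max (nuB C P t m ((a + 1) * 2 ^ t - k) x - c) 0) ≤
      (W.E (fun x => max (nuB C P t m (a * 2 ^ t) x - c) 0) -
        W.E (fun x => max (nuB C P t m ((a + 1) * 2 ^ t) x - c) 0)) +
      (W.E (fun x => C.e (a * 2 ^ t) x (P.b t (m + 1))) -
        W.E (fun x => C.e ((a + 1) * 2 ^ t) x (P.b t (m + 1)))) := by
    intro a m
    set T := (a + 1) * 2 ^ t with hT
    have hb : a * 2 ^ t ≤ T - k := by
      rw [hT, Nat.succ_mul]; omega
    have hbT : T - k ≤ T := Nat.sub_le _ _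
    set φ : X → ℝ := fun x => if nuB C P t m T x ≤ c then (1 : ℝ) else 0 with hφ
    have mφ : W.Meas T φ := Tr.Meas.ite fun x y hxy => by rw [meas_nuB C P t m T x y hxy]
    have φ0 : ∀ x, 0 ≤ 1 - φ x := fun x => by simp only [hφ]; split <;> norm_num
    have φ1 : ∀ x, 1 - φ x ≤ 1 := fun x => by simp only [hφ]; split <;> norm_num
    have s1 := C.blow_mono hbT (P.b t m) (P.b t (m + 1)) c (ψ := fun x => 1 - φ x)
      ((Tr.Meas.const 1).sub mφ) φ0 φ1
    have s2 := C.blow_mono hb (P.b t m) (P.b t (m + 1)) c (ψ := fun _ => 1)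
      (Tr.Meas.const 1) (fun _ => zero_le_one) (fun _ => le_rfl)
    simp only [one_mul] at s2
    have s3 : ∀ i, W.E (fun x => (1 - φ x) * max (C.nu i x (P.b t m) (P.b t (m + 1)) - c) 0) =
        W.E (fun x => max (C.nu i x (P.b t m) (P.b t (m + 1)) - c) 0) -
          W.E (fun x => φ x * max (C.nu i x (P.b t m) (P.b t (m + 1)) - c) 0) := by
      intro i
      rw [← Tr.E_sub]
      congr 1
      funext x
      ring
    have s4 : W.E (fun x => φ x * max (C.nu T x (P.b t m) (P.b t (m + 1)) - c) 0) = 0 := by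
      have : (fun x => φ x * max (C.nu T x (P.b t m) (P.b t (m + 1)) - c) 0) = fun _ => 0 := by
        funext x
        simp only [hφ]
        split
        · rename_i h; rw [max_eq_right, mul_zero]
          have : nuB C P t m T x ≤ c := h
          simp only [nuB] at this
          linarith
        · rw [zero_mul]
      rw [this, Tr.E_const]
    rw [s3, s3, s4] at s1
    simp only [nuB]
    change W.E (fun x => φ x * max (C.nu (T - k) x (P.b t m) (P.b t (m + 1)) - c) 0) ≤ _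
    linarith
  calc _ ≤ ∑ a ∈ range (P.na t), ∑ m ∈ range (P.nb t),
      ((W.E (fun x => max (nuB C P t m (a * 2 ^ t) x - c) 0) -
        W.E (fun x => max (nuB C P t m ((a + 1) * 2 ^ t) x - c) 0)) +
      (W.E (fun x => C.e (a * 2 ^ t) x (P.b t (m + 1))) -
        W.E (fun x => C.e ((a + 1) * 2 ^ t) x (P.b t (m + 1))))) :=
        sum_le_sum fun a _ => sum_le_sum fun m _ => key a m
    _ = ∑ m ∈ range (P.nb t),
        ((W.E (fun x => max (nuB C P t m 0 x - c) 0) -
          W.E (fun x => max (nuB C P t m P.n x - c) 0)) + gam C P (P.b t (m + 1))) := by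
        rw [sum_comm]
        refine sum_congr rfl fun m _ => ?_
        rw [sum_add_distrib, sum_lev (fun k => W.E (fun x => max (nuB C P t m k x - c) 0)),
          sum_lev (fun k => W.E (fun x => C.e k x (P.b t (m + 1)))), P.na_mul ht]
        rfl
    _ ≤ ∑ m ∈ range (P.nb t), (W.E (nuB C P t m 0) + gam C P (P.b t (m + 1))) := by
        refine sum_le_sum fun m _ => ?_
        have h1 : W.E (fun x => max (nuB C P t m 0 x - c) 0) ≤ W.E (nuB C P t m 0) :=
          Tr.E_mono fun x => max_le (by linarith) (nuB_nonneg C P t m 0 x)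
        have h2 : 0 ≤ W.E (fun x => max (nuB C P t m P.n x - c) 0) :=
          Tr.E_nonneg fun x => le_max_right _ _
        linarith
    _ ≤ _ := by
        rw [sum_add_distrib]
        have := E_sum_blocks_le C P (s := t) 0 (P.nb t)
        linarith

end

end Vale.Agent.P315.MS607
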