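import Vale.Agent.P315.MS607.Bounds

/-!
P315, multi-scale accounting theorem, layer 4: the machine hypotheses and steps 5-11 of
helper728's note.
-/

open Finset

namespace Vale.Agent.P315.MS607

variable {X : Type*} [Fintype X] {W : Tr X}

/-- dyadic class of a number -/
def cls (l : ℕ) (y : ℝ) : Prop := (1 / 2 : ℝ) ^ (l + 1) ≤ y ∧ y < (1 / 2 : ℝ) ^ l

lemma cls_unique {l k : ℕ} {y : ℝ} (h1 : cls l y) (h2 : cls k y) : l = k := by
  by_contra hne
  rcases Nat.lt_or_gt_of_ne hne with h | h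
  · have h3 : (1 / 2 : ℝ) ^ k ≤ (1 / 2 : ℝ) ^ (l + 1) :=
      pow_le_pow_of_le_one (by norm_num) (by norm_num) h
    linarith [h1.1, h2.2]
  · have h3 : (1 / 2 : ℝ) ^ l ≤ (1 / 2 : ℝ) ^ (k + 1) :=
      pow_le_pow_of_le_one (by norm_num) (by norm_num) h
    linarith [h2.1, h1.2]

lemma ind_ite (p : Prop) [Decidable p] : (if p then (1 : ℝ) else 0) = ind p := by
  by_cases h : p
  · rw [if_pos h, ind_pos h]
  · rw [if_neg h, ind_neg h]

lemma ind_mono {p q : Prop} (h : p → q) : ind p ≤ ind q := by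
  by_cases hp : p
  · rw [ind_pos hp, ind_pos (h hp)]
  · rw [ind_neg hp]; exact ind_nonneg q

lemma sum_cls (Λ : Finset ℕ) (p : Prop) (y : ℝ) :
    ∑ l ∈ Λ, ind (p ∧ cls l y) = ind (p ∧ ∃ l ∈ Λ, cls l y) := by
  by_cases h : p ∧ ∃ l ∈ Λ, cls l y
  · obtain ⟨hp, l, hl, hc⟩ := h
    rw [ind_pos ⟨hp, l, hl, hc⟩, sum_eq_single_of_mem l hl]
    · exact ind_pos ⟨hp, hc⟩
    · intro k _ hk
      exact ind_neg fun h => hk (cls_unique h.2 hc)
  · rw [ind_neg h]
    refine sum_eq_zero fun l hl => ind_neg fun h' => h ⟨h'.1, l, hl, h'.2⟩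

/-- parameters and machine inequalities for one grid -/
structure Hyp (C : Cv W) (P : Gr) where
  th : ℕ → ℝ
  th' : ℕ → ℝ
  tau : ℕ → ℝ
  L : ℕ → ℝ
  Lam : ℕ → Finset ℕ
  cM : ℝ
  om : ℕ → ℕ → X → ℕ → ℝ
  cred : ℕ → ℕ → X → ℕ → ℝ
  loss : ℕ → ℕ → X → ℕ → ℝ
  Cap : ℕ → ℕ → X → ℕ → ℝ
  th_pos : ∀ s, 0 < th s
  th'_nn : ∀ s, 0 ≤ th' s
  tau_nn : ∀ s, 0 ≤ tau s
  tau_le : ∀ s, 1000 * tau s ≤ th s
  L_nn : ∀ s, 0 ≤ L s
  cM_nn : 0 ≤ cM
  up : ∀ s t, 1 ≤ s → s + 2 ≤ t → t ≤ P.S → 160 * th' t ≤ 3 * th s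
  Lam_cover : ∀ s, 1 ≤ s → s ≤ P.S → ∀ y, 3 / 4 * th s ≤ y → y ≤ 5 / 4 * th' s →
    ∃ l ∈ Lam s, cls l y
  Lam_lo : ∀ s, 1 ≤ s → s ≤ P.S → ∀ l ∈ Lam s, 3 / 8 * th s ≤ (1 / 2 : ℝ) ^ (l + 1)
  Lam_hi : ∀ s, 1 ≤ s → s ≤ P.S → ∀ l ∈ Lam s, (1 / 2 : ℝ) ^ l ≤ 5 / 2 * th' s
  om_meas : ∀ s a b, W.Meas (top s a) (fun x => om s a x b)
  om_lo : ∀ s, 1 ≤ s → s ≤ P.S → ∀ a < P.na s, ∀ x b,
    C.e (top s a) x b ≤ om s a x b + tau s
  om_hi : ∀ s, 1 ≤ s → s ≤ P.S → ∀ a < P.na s, ∀ x b,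
    om s a x b ≤ C.V (a * 2 ^ s) (top s a) x b + tau s
  loss_nn : ∀ s a x m, 0 ≤ loss s a x m
  h3b : ∀ s, 1 ≤ s → s ≤ P.S → ∀ a < P.na s, ∀ x, ∀ l ∈ Lam s, ∀ A : ℕ → Prop,
    ∑ m ∈ range (P.nb s), ind (A m ∧ cls l (om s a x (P.b s m) - om s a x (P.b s (m + 1)))) *
        cred s a x m ≤
      cM * ∑ m ∈ range (P.nb s),
        ind (A m ∧ cls l (om s a x (P.b s m) - om s a x (P.b s (m + 1)))) *
          ∑ b ∈ Ico (P.b s m) (P.b s (m + 1)), C.G (a * 2 ^ s) (top s a) x b +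
      2 ^ s * L s * ∑ m ∈ range (P.nb s),
        ind (¬ A m ∧ cls l (om s a x (P.b s m) - om s a x (P.b s (m + 1)))) *
          (om s a x (P.b s m) - om s a x (P.b s (m + 1))) +
      Cap s a x l
  h3c : ∀ s, 1 ≤ s → s ≤ P.S → ∀ a < P.na s, ∀ x, ∀ l ∈ Lam s, ∀ m < P.nb s,
    cls l (om s a x (P.b s m) - om s a x (P.b s (m + 1))) →
    2 ^ s * W.avg (top s a) (fun y => ind (nuB C P s m (a * 2 ^ s) y ≤ 4 * (1 / 2 : ℝ) ^ l) *
      nuB C P s m (a * 2 ^ s) y) x ≤ cred s a x m + loss s a x m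

namespace Hyp

variable {C : Cv W} {P : Gr} (H : Hyp C P)

/-- drop of the visible optimum over a block -/
def mm (s a m : ℕ) (x : X) : ℝ := H.om s a x (P.b s m) - H.om s a x (P.b s (m + 1))

def act (s a m : ℕ) (x : X) : Prop := ∃ l ∈ H.Lam s, cls l (H.mm s a m x)

def tight (s a m : ℕ) (x : X) : Prop :=
  G0 C P s a m x + G1 C P s a m x + 2 * H.tau s ≤ nuB C P s m (top s a) x / 4

def ups (s a m : ℕ) (x : X) : Prop := ∀ t, s + 2 ≤ t → t ≤ P.S →
  4 * H.th' t ≤ nuB C P t (m / 16 ^ (t - s)) (top t (a / 2 ^ (t - s))) x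

def inA (s a m : ℕ) (x : X) : Prop := (H.tight s a m x ∧ H.ups s a m x) ∧ H.act s a m x

/-- tight, active, not up-stable -/
def bad (s a m : ℕ) (x : X) : Prop := H.act s a m x ∧ H.tight s a m x ∧ ¬ H.ups s a m x

lemma meas_mm (s a m : ℕ) : W.Meas (top s a) (H.mm s a m) :=
  (H.om_meas s a _).sub (H.om_meas s a _)

lemma act_iff {s a m : ℕ} {x y : X} (h : W.q (top s a) x = W.q (top s a) y) :
    H.act s a m x ↔ H.act s a m y := by
  unfold act; rw [H.meas_mm s a m x y h]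

lemma tight_iff {s a m : ℕ} {x y : X} (h : W.q (top s a) x = W.q (top s a) y) :
    H.tight s a m x ↔ H.tight s a m y := by
  unfold tight
  rw [meas_G0 C P s a m x y h, meas_G1 C P s a m x y h, meas_nuB C P s m (top s a) x y h]

lemma ups_iff {s a m : ℕ} {x y : X} (h : W.q (top s a) x = W.q (top s a) y) :
    H.ups s a m x ↔ H.ups s a m y := by
  unfold ups
  refine forall_congr' fun t => forall_congr' fun ht => forall_congr' fun _ => ?_
  have := meas_box C P (by omega : s ≤ t) a (m / 16 ^ (t - s)) x y h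
  simp only at this
  rw [this]

lemma inA_iff {s a m : ℕ} {x y : X} (h : W.q (top s a) x = W.q (top s a) y) :
    H.inA s a m x ↔ H.inA s a m y := by
  unfold inA; rw [H.act_iff h, H.tight_iff h, H.ups_iff h]

lemma bad_iff {s a m : ℕ} {x y : X} (h : W.q (top s a) x = W.q (top s a) y) :
    H.bad s a m x ↔ H.bad s a m y := by
  unfold bad; rw [H.act_iff h, H.tight_iff h, H.ups_iff h]

section

variable {s : ℕ} (h1 : 1 ≤ s) (hS : s ≤ P.S) {a : ℕ} (ha : a < P.na s) (m : ℕ) (x : X)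

include h1 hS ha in
lemma mm_le : H.mm s a m x ≤ nuB C P s m (top s a) x + G0 C P s a m x + 2 * H.tau s := by
  have e1 := H.om_hi s h1 hS a ha x (P.b s m)
  have e2 := H.om_lo s h1 hS a ha x (P.b s (m + 1))
  simp only [mm, nuB, Cv.nu, G0, Cv.G]
  linarith

include h1 hS ha in
lemma le_mm : nuB C P s m (top s a) x - G1 C P s a m x - 2 * H.tau s ≤ H.mm s a m x := by
  have e1 := H.om_lo s h1 hS a ha x (P.b s m)
  have e2 := H.om_hi s h1 hS a ha x (P.b s (m + 1))
  simp only [mm, nuB, Cv.nu, G1, Cv.G]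
  linarith

include h1 hS in
lemma act_bounds (h : H.act s a m x) :
    3 / 8 * H.th s ≤ H.mm s a m x ∧ H.mm s a m x ≤ 5 / 2 * H.th' s := by
  obtain ⟨l, hl, hc⟩ := h
  exact ⟨(H.Lam_lo s h1 hS l hl).trans hc.1, hc.2.le.trans (H.Lam_hi s h1 hS l hl)⟩

include h1 hS ha in
lemma tight_bounds (h : H.tight s a m x) :
    3 / 4 * nuB C P s m (top s a) x ≤ H.mm s a m x ∧
      H.mm s a m x ≤ 5 / 4 * nuB C P s m (top s a) x := by
  have e1 := H.mm_le h1 hS ha m x
  have e2 := H.le_mm h1 hS ha m x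
  have g0 := G0_nonneg C P s a m x
  have g1 := G1_nonneg C P s a m x
  unfold tight at h
  constructor <;> linarith

include h1 hS ha in
/-- step 5 -/
lemma pt_rho : ind (H.th s ≤ nuB C P s m (top s a) x ∧ nuB C P s m (top s a) x ≤ H.th' s) *
    rho C P s a m x ≤ 6 * (G0 C P s a m x + G1 C P s a m x) +
      5 / 4 * (ind (H.bad s a m x) * nuB C P s m (top s a) x) +
      ind (H.inA s a m x) * rho C P s a m x := by
  have g0 := G0_nonneg C P s a m x
  have g1 := G1_nonneg C P s a m x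
  have r0 := rho_nonneg C P s a m x
  have v0 := nuB_nonneg C P s m (top s a) x
  have re := rho_eq C P s a m x
  have t0 := H.tau_nn s
  have t1 := H.tau_le s
  by_cases hr : H.th s ≤ nuB C P s m (top s a) x ∧ nuB C P s m (top s a) x ≤ H.th' s
  · rw [ind_pos hr, one_mul]
    by_cases ht : H.tight s a m x
    · have tb := H.tight_bounds h1 hS ha m x ht
      have hact : H.act s a m x := by
        refine H.Lam_cover s h1 hS _ ?_ ?_
        · linarith [hr.1, tb.1]
        · linarith [hr.2, tb.2]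
      have hrho : rho C P s a m x ≤ 5 / 4 * nuB C P s m (top s a) x := by
        unfold tight at ht; linarith
      by_cases hu : H.ups s a m x
      · rw [ind_pos (p := H.inA s a m x) ⟨⟨ht, hu⟩, hact⟩, one_mul]
        have := mul_nonneg (ind_nonneg (H.bad s a m x)) v0
        linarith
      · rw [ind_pos (p := H.bad s a m x) ⟨hact, ht, hu⟩, one_mul]
        have := mul_nonneg (ind_nonneg (H.inA s a m x)) r0
        linarith
    · have ht' := not_le.1 ht
      have h2 := mul_nonneg (ind_nonneg (H.bad s a m x)) v0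
      have h3 := mul_nonneg (ind_nonneg (H.inA s a m x)) r0
      have h4 := hr.1
      linarith
  · rw [ind_neg hr, zero_mul]
    have h2 := mul_nonneg (ind_nonneg (H.bad s a m x)) v0
    have h3 := mul_nonneg (ind_nonneg (H.inA s a m x)) r0
    linarith

include h1 hS ha in
/-- step 7 -/
lemma pt_mm : ind (¬ H.inA s a m x ∧ H.act s a m x) * H.mm s a m x ≤
    6 * (G0 C P s a m x + G1 C P s a m x) +
      5 / 4 * (ind (H.bad s a m x) * nuB C P s m (top s a) x) := by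
  have g0 := G0_nonneg C P s a m x
  have g1 := G1_nonneg C P s a m x
  have v0 := nuB_nonneg C P s m (top s a) x
  have t0 := H.tau_nn s
  have t1 := H.tau_le s
  have h2 := mul_nonneg (ind_nonneg (H.bad s a m x)) v0
  by_cases hr : ¬ H.inA s a m x ∧ H.act s a m x
  · rw [ind_pos hr, one_mul]
    have ab := H.act_bounds h1 hS m x hr.2
    by_cases ht : H.tight s a m x
    · have tb := H.tight_bounds h1 hS ha m x ht
      have hu : ¬ H.ups s a m x := fun hu => hr.1 ⟨⟨ht, hu⟩, hr.2⟩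
      rw [ind_pos (p := H.bad s a m x) ⟨hr.2, ht, hu⟩, one_mul]
      linarith [tb.2]
    · have ht' := not_le.1 ht
      have e1 := H.mm_le h1 hS ha m x
      linarith [ab.1]
  · rw [ind_neg hr, zero_mul]
    linarith

end

/-- mass of the bad blocks of scale `s` -/
noncomputable def U (s : ℕ) : ℝ := ∑ a ∈ range (P.na s), ∑ m ∈ range (P.nb s),
  W.E (fun x => ind (H.bad s a m x) * nuB C P s m (top s a) x)

end Hyp

section blowup

variable (C : Cv W) (P : Gr)

/-- step 8, one larger scale `t` -/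
lemma UT {s t : ℕ} (hst : s ≤ t) (ht : t ≤ P.S) {c c' : ℝ} (hc : 0 ≤ c) (hcc : 2 * c ≤ c') :
    ∑ a ∈ range (P.na s), ∑ m ∈ range (P.nb s),
      W.E (fun x => ind (nuB C P t (m / 16 ^ (t - s)) (top t (a / 2 ^ (t - s))) x ≤ c) *
        (ind (c' ≤ nuB C P s m (top s a) x) * nuB C P s m (top s a) x)) ≤
      2 ^ (t - s) * (2 * (1 + GB1 C P t)) := by
  have hc' : 0 ≤ c' := by linarith
  have hpow : 2 ^ t = 2 ^ (t - s) * 2 ^ s := by rw [← pow_add, Nat.sub_add_cancel hst]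
  rw [← P.na_mul' hst ht, sum_range_mul']
  have step1 : ∀ a', ∀ i ∈ range (2 ^ (t - s)), ∑ m ∈ range (P.nb s),
      W.E (fun x => ind (nuB C P t (m / 16 ^ (t - s))
          (top t ((a' * 2 ^ (t - s) + i) / 2 ^ (t - s))) x ≤ c) *
        (ind (c' ≤ nuB C P s m (top s (a' * 2 ^ (t - s) + i)) x) *
          nuB C P s m (top s (a' * 2 ^ (t - s) + i)) x)) ≤
      ∑ m' ∈ range (P.nb t), 2 * W.E (fun x => (ind (nuB C P t m' ((a' + 1) * 2 ^ t) x ≤ c)) *
        max (nuB C P t m' ((a' + 1) * 2 ^ t - (2 ^ t - (i + 1) * 2 ^ s)) x - c) 0) := by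
    intro a' i hi
    have hi' : i < 2 ^ (t - s) := mem_range.1 hi
    have ha : (a' * 2 ^ (t - s) + i) / 2 ^ (t - s) = a' := by
      rw [mul_comm, Nat.mul_add_div (by positivity), Nat.div_eq_of_lt hi', add_zero]
    have hlev : (a' + 1) * 2 ^ t - (2 ^ t - (i + 1) * 2 ^ s) = top s (a' * 2 ^ (t - s) + i) := by
      unfold top
      have h1 : (i + 1) * 2 ^ s ≤ 2 ^ t := by
        rw [hpow]; exact Nat.mul_le_mul_right _ hi'
      have h2 : (a' * 2 ^ (t - s) + i + 1) * 2 ^ s = a' * 2 ^ t + (i + 1) * 2 ^ s := by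
        rw [hpow]; ring
      rw [h2, Nat.succ_mul]
      omega
    rw [ha, hlev, ← P.nb_mul' hst ht, sum_range_mul']
    refine sum_le_sum fun m' _ => ?_
    have hm : ∀ r ∈ range (16 ^ (t - s)),
        W.E (fun x => ind (nuB C P t ((m' * 16 ^ (t - s) + r) / 16 ^ (t - s)) (top t a') x ≤ c) *
        (ind (c' ≤ nuB C P s (m' * 16 ^ (t - s) + r) (top s (a' * 2 ^ (t - s) + i)) x) *
          nuB C P s (m' * 16 ^ (t - s) + r) (top s (a' * 2 ^ (t - s) + i)) x)) =
        W.E (fun x => ind (nuB C P t m' (top t a') x ≤ c) *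
        (ind (c' ≤ nuB C P s (m' * 16 ^ (t - s) + r) (top s (a' * 2 ^ (t - s) + i)) x) *
          nuB C P s (m' * 16 ^ (t - s) + r) (top s (a' * 2 ^ (t - s) + i)) x)) := by
      intro r hr
      have hr' : r < 16 ^ (t - s) := mem_range.1 hr
      have : (m' * 16 ^ (t - s) + r) / 16 ^ (t - s) = m' := by
        rw [mul_comm, Nat.mul_add_div (by positivity), Nat.div_eq_of_lt hr', add_zero]
      rw [this]
    rw [sum_congr rfl hm, ← Tr.E_sum, ← Tr.E_const_mul]
    refine Tr.E_mono fun x => ?_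
    rw [← mul_sum]
    have key : ∑ r ∈ range (16 ^ (t - s)),
        ind (c' ≤ nuB C P s (m' * 16 ^ (t - s) + r) (top s (a' * 2 ^ (t - s) + i)) x) *
          nuB C P s (m' * 16 ^ (t - s) + r) (top s (a' * 2 ^ (t - s) + i)) x ≤
        2 * max (nuB C P t m' (top s (a' * 2 ^ (t - s) + i)) x - c) 0 := by
      set y := nuB C P t m' (top s (a' * 2 ^ (t - s) + i)) x with hy
      have hsum : ∑ r ∈ range (16 ^ (t - s)),
          nuB C P s (m' * 16 ^ (t - s) + r) (top s (a' * 2 ^ (t - s) + i)) x = y :=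
        sum_sub_blocks C P hst m' _ x
      by_cases hex : ∃ r ∈ range (16 ^ (t - s)),
          c' ≤ nuB C P s (m' * 16 ^ (t - s) + r) (top s (a' * 2 ^ (t - s) + i)) x
      · obtain ⟨r, hr, hcr⟩ := hex
        have hle : ∑ r ∈ range (16 ^ (t - s)),
            ind (c' ≤ nuB C P s (m' * 16 ^ (t - s) + r) (top s (a' * 2 ^ (t - s) + i)) x) *
              nuB C P s (m' * 16 ^ (t - s) + r) (top s (a' * 2 ^ (t - s) + i)) x ≤ y := by
          rw [← hsum]
          refine sum_le_sum fun r _ => ?_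
          have v0 := nuB_nonneg C P s (m' * 16 ^ (t - s) + r) (top s (a' * 2 ^ (t - s) + i)) x
          have := mul_le_mul_of_nonneg_right (ind_le_one
            (c' ≤ nuB C P s (m' * 16 ^ (t - s) + r) (top s (a' * 2 ^ (t - s) + i)) x)) v0
          rwa [one_mul] at this
        have hyc : c' ≤ y := by
          rw [← hsum]
          exact hcr.trans (single_le_sum (f := fun r =>
            nuB C P s (m' * 16 ^ (t - s) + r) (top s (a' * 2 ^ (t - s) + i)) x)
            (fun r _ => nuB_nonneg C P s _ _ x) hr)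
        have := le_max_left (y - c) 0
        linarith
      · push Not at hex
        have hz : ∑ r ∈ range (16 ^ (t - s)),
            ind (c' ≤ nuB C P s (m' * 16 ^ (t - s) + r) (top s (a' * 2 ^ (t - s) + i)) x) *
              nuB C P s (m' * 16 ^ (t - s) + r) (top s (a' * 2 ^ (t - s) + i)) x = 0 :=
          sum_eq_zero fun r hr => by rw [ind_neg (not_le.2 (hex r hr)), zero_mul]
        rw [hz]
        have := le_max_right (y - c) 0
        linarith
    have i0 := ind_nonneg (nuB C P t m' (top t a') x ≤ c)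
    have h5 := mul_le_mul_of_nonneg_left key i0
    calc _ ≤ _ := h5
      _ = _ := by simp only [top]; ring
  calc _ ≤ ∑ a' ∈ range (P.na t), ∑ i ∈ range (2 ^ (t - s)), ∑ m' ∈ range (P.nb t),
        2 * W.E (fun x => (ind (nuB C P t m' ((a' + 1) * 2 ^ t) x ≤ c)) *
        max (nuB C P t m' ((a' + 1) * 2 ^ t - (2 ^ t - (i + 1) * 2 ^ s)) x - c) 0) :=
        sum_le_sum fun a' _ => sum_le_sum fun i hi => step1 a' i hi
    _ = ∑ i ∈ range (2 ^ (t - s)), 2 * ∑ a' ∈ range (P.na t), ∑ m' ∈ range (P.nb t),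
        W.E (fun x => (ind (nuB C P t m' ((a' + 1) * 2 ^ t) x ≤ c)) *
        max (nuB C P t m' ((a' + 1) * 2 ^ t - (2 ^ t - (i + 1) * 2 ^ s)) x - c) 0) := by
        rw [sum_comm]
        simp only [mul_sum]
    _ ≤ ∑ _i ∈ range (2 ^ (t - s)), 2 * (1 + GB1 C P t) := by
        refine sum_le_sum fun i _ => ?_
        refine mul_le_mul_of_nonneg_left ?_ (by norm_num)
        have := blow C P ht (k := 2 ^ t - (i + 1) * 2 ^ s) (Nat.sub_le _ _) hc
        simp only [ind_ite] at this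
        exact this
    _ = _ := by rw [sum_const, card_range, nsmul_eq_mul]; push_cast; ring

end blowup

end Vale.Agent.P315.MS607
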