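import Vale.Agent.P315.MS607.Mach

/-!
P315, multi-scale accounting theorem, layer 5: assembly for one grid.
-/

open Finset

namespace Vale.Agent.P315.MS607

variable {X : Type*} [Fintype X] {W : Tr X}

namespace Hyp

variable {C : Cv W} {P : Gr} (H : Hyp C P)

lemma U_le {s : ℕ} (h1 : 1 ≤ s) (hS : s ≤ P.S) :
    H.U s ≤ ∑ t ∈ Icc (s + 2) P.S, 2 ^ (t - s) * (2 * (1 + GB1 C P t)) := by
  have hpt : ∀ a ∈ range (P.na s), ∀ m, ∀ x,
      ind (H.bad s a m x) * nuB C P s m (top s a) x ≤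
      ∑ t ∈ Icc (s + 2) P.S,
        ind (nuB C P t (m / 16 ^ (t - s)) (top t (a / 2 ^ (t - s))) x ≤ 8 * H.th' t) *
        (ind (3 / 10 * H.th s ≤ nuB C P s m (top s a) x) * nuB C P s m (top s a) x) := by
    intro a ha m x
    have ha' : a < P.na s := mem_range.1 ha
    have v0 := nuB_nonneg C P s m (top s a) x
    have hnn : ∀ t ∈ Icc (s + 2) P.S, 0 ≤
        ind (nuB C P t (m / 16 ^ (t - s)) (top t (a / 2 ^ (t - s))) x ≤ 8 * H.th' t) *
        (ind (3 / 10 * H.th s ≤ nuB C P s m (top s a) x) * nuB C P s m (top s a) x) :=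
      fun t _ => mul_nonneg (ind_nonneg _) (mul_nonneg (ind_nonneg _) v0)
    by_cases hb : H.bad s a m x
    · rw [ind_pos hb, one_mul]
      obtain ⟨hact, htight, hnu⟩ := hb
      have ab := H.act_bounds h1 hS m x hact
      have tb := H.tight_bounds h1 hS ha' m x htight
      have hlow : 3 / 10 * H.th s ≤ nuB C P s m (top s a) x := by linarith [ab.1, tb.2]
      have hex : ∃ t, s + 2 ≤ t ∧ t ≤ P.S ∧
          nuB C P t (m / 16 ^ (t - s)) (top t (a / 2 ^ (t - s))) x < 4 * H.th' t := by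
        by_contra hcon
        refine hnu fun t ht1 ht2 => ?_
        by_contra hlt
        exact hcon ⟨t, ht1, ht2, not_le.1 hlt⟩
      obtain ⟨t, ht1, ht2, hlt⟩ := hex
      have hmem : t ∈ Icc (s + 2) P.S := mem_Icc.2 ⟨ht1, ht2⟩
      refine le_trans (le_of_eq ?_) (single_le_sum hnn hmem)
      rw [ind_pos hlow, ind_pos, one_mul, one_mul]
      have := H.th'_nn t
      linarith
    · rw [ind_neg hb, zero_mul]
      exact sum_nonneg hnn
  calc H.U s ≤ ∑ a ∈ range (P.na s), ∑ m ∈ range (P.nb s), ∑ t ∈ Icc (s + 2) P.S,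
        W.E (fun x => ind (nuB C P t (m / 16 ^ (t - s)) (top t (a / 2 ^ (t - s))) x ≤
          8 * H.th' t) *
        (ind (3 / 10 * H.th s ≤ nuB C P s m (top s a) x) * nuB C P s m (top s a) x)) := by
        refine sum_le_sum fun a ha => sum_le_sum fun m _ => ?_
        rw [← Tr.E_sum]
        exact Tr.E_mono fun x => hpt a ha m x
    _ = ∑ t ∈ Icc (s + 2) P.S, ∑ a ∈ range (P.na s), ∑ m ∈ range (P.nb s),
        W.E (fun x => ind (nuB C P t (m / 16 ^ (t - s)) (top t (a / 2 ^ (t - s))) x ≤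
          8 * H.th' t) *
        (ind (3 / 10 * H.th s ≤ nuB C P s m (top s a) x) * nuB C P s m (top s a) x)) :=
        sum3_comm _ _ _ _
    _ ≤ _ := by
        refine sum_le_sum fun t ht => ?_
        obtain ⟨ht1, ht2⟩ := mem_Icc.1 ht
        refine UT C P (by omega) ht2 (by have := H.th'_nn t; linarith) ?_
        have := H.up s t h1 ht1 ht2
        linarith

/-- gains inside the blocks of `A_s` -/
noncomputable def GA (s : ℕ) : ℝ := ∑ a ∈ range (P.na s), ∑ m ∈ range (P.nb s),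
  W.E (fun x => ind (H.inA s a m x) *
    ∑ b ∈ Ico (P.b s m) (P.b s (m + 1)), C.G (a * 2 ^ s) (top s a) x b)

noncomputable def CapT (s : ℕ) : ℝ := ∑ a ∈ range (P.na s),
  W.E (fun x => ∑ l ∈ H.Lam s, H.Cap s a x l)

noncomputable def LossT (s : ℕ) : ℝ := ∑ a ∈ range (P.na s), ∑ m ∈ range (P.nb s),
  W.E (fun x => H.loss s a x m)

/-- units above the cap -/
lemma over_cap {s : ℕ} (h1 : 1 ≤ s) (hS : s ≤ P.S) (l : ℕ) :
    ∑ a ∈ range (P.na s), ∑ m ∈ range (P.nb s),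
      W.E (fun x => ind (H.inA s a m x ∧ cls l (H.mm s a m x)) *
        W.avg (top s a) (fun y => ind (¬ nuB C P s m (a * 2 ^ s) y ≤ 4 * (1 / 2 : ℝ) ^ l) *
          nuB C P s m (a * 2 ^ s) y) x) ≤ 2 * (1 + GB1 C P s) := by
  have hb := blow C P hS (k := 2 ^ s) le_rfl (c := 2 * (1 / 2 : ℝ) ^ l) (by positivity)
  simp only [ind_ite] at hb
  calc _ ≤ ∑ a ∈ range (P.na s), ∑ m ∈ range (P.nb s), 2 *
        W.E (fun x => ind (nuB C P s m ((a + 1) * 2 ^ s) x ≤ 2 * (1 / 2 : ℝ) ^ l) *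
        max (nuB C P s m ((a + 1) * 2 ^ s - 2 ^ s) x - 2 * (1 / 2 : ℝ) ^ l) 0) := by
        refine sum_le_sum fun a ha => sum_le_sum fun m _ => ?_
        have ha' : a < P.na s := mem_range.1 ha
        have hm : W.Meas (top s a) (fun x => ind (H.inA s a m x ∧ cls l (H.mm s a m x))) :=
          meas_ind fun x y h => by rw [H.inA_iff h, H.meas_mm s a m x y h]
        rw [Tr.E_mul_avg hm, ← Tr.E_const_mul]
        refine Tr.E_mono fun x => ?_
        have hl : (a + 1) * 2 ^ s - 2 ^ s = a * 2 ^ s := by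
          rw [Nat.succ_mul, Nat.add_sub_cancel]
        rw [hl]
        have hmx := le_max_right (nuB C P s m (a * 2 ^ s) x - 2 * (1 / 2 : ℝ) ^ l) 0
        have hmy := le_max_left (nuB C P s m (a * 2 ^ s) x - 2 * (1 / 2 : ℝ) ^ l) 0
        by_cases hA : H.inA s a m x ∧ cls l (H.mm s a m x)
        · have tb := H.tight_bounds h1 hS ha' m x hA.1.1.1
          have hc := hA.2.2
          have hle : nuB C P s m ((a + 1) * 2 ^ s) x ≤ 2 * (1 / 2 : ℝ) ^ l := by
            have : 0 ≤ (1 / 2 : ℝ) ^ l := by positivity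
            have e := tb.1
            simp only [top] at e
            linarith
          rw [ind_pos hA, ind_pos hle, one_mul, one_mul]
          by_cases hv : nuB C P s m (a * 2 ^ s) x ≤ 4 * (1 / 2 : ℝ) ^ l
          · rw [ind_neg (not_not.2 hv), zero_mul]; linarith
          · rw [ind_pos hv, one_mul]; linarith [not_le.1 hv]
        · rw [ind_neg hA, zero_mul]
          have := mul_nonneg (ind_nonneg (nuB C P s m ((a + 1) * 2 ^ s) x ≤
            2 * (1 / 2 : ℝ) ^ l)) hmx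
          linarith
    _ = 2 * ∑ a ∈ range (P.na s), ∑ m ∈ range (P.nb s),
        W.E (fun x => ind (nuB C P s m ((a + 1) * 2 ^ s) x ≤ 2 * (1 / 2 : ℝ) ^ l) *
        max (nuB C P s m ((a + 1) * 2 ^ s - 2 ^ s) x - 2 * (1 / 2 : ℝ) ^ l) 0) := by
        simp only [mul_sum]
    _ ≤ _ := mul_le_mul_of_nonneg_left hb (by norm_num)

/-- pointwise form of step 11 -/
lemma pt_main {s : ℕ} (h1 : 1 ≤ s) (hS : s ≤ P.S) {a : ℕ} (ha : a < P.na s) (x : X) :
    2 ^ s * ∑ m ∈ range (P.nb s), ind (H.inA s a m x) * rho C P s a m x ≤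
      H.cM * ∑ m ∈ range (P.nb s), ind (H.inA s a m x) *
        ∑ b ∈ Ico (P.b s m) (P.b s (m + 1)), C.G (a * 2 ^ s) (top s a) x b +
      2 ^ s * H.L s * ∑ m ∈ range (P.nb s),
        ind (¬ H.inA s a m x ∧ H.act s a m x) * H.mm s a m x +
      ∑ l ∈ H.Lam s, H.Cap s a x l + ∑ m ∈ range (P.nb s), H.loss s a x m +
      2 ^ s * ∑ l ∈ H.Lam s, ∑ m ∈ range (P.nb s),
        ind (H.inA s a m x ∧ cls l (H.mm s a m x)) *
        W.avg (top s a) (fun y => ind (¬ nuB C P s m (a * 2 ^ s) y ≤ 4 * (1 / 2 : ℝ) ^ l) *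
          nuB C P s m (a * 2 ^ s) y) x := by
  have hsplit : ∀ l m, rho C P s a m x =
      W.avg (top s a) (fun y => ind (nuB C P s m (a * 2 ^ s) y ≤ 4 * (1 / 2 : ℝ) ^ l) *
        nuB C P s m (a * 2 ^ s) y) x +
      W.avg (top s a) (fun y => ind (¬ nuB C P s m (a * 2 ^ s) y ≤ 4 * (1 / 2 : ℝ) ^ l) *
        nuB C P s m (a * 2 ^ s) y) x := by
    intro l m
    rw [← Tr.avg_add]
    have : (fun y => ind (nuB C P s m (a * 2 ^ s) y ≤ 4 * (1 / 2 : ℝ) ^ l) *
        nuB C P s m (a * 2 ^ s) y + ind (¬ nuB C P s m (a * 2 ^ s) y ≤ 4 * (1 / 2 : ℝ) ^ l) *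
        nuB C P s m (a * 2 ^ s) y) = nuB C P s m (a * 2 ^ s) := by
      funext y
      rw [ind_not]
      ring
    rw [this]
    simp only [rho, Cv.V]
    rw [← Tr.avg_sub]
    rfl
  -- split into classes
  have hcl : ∀ m, ind (H.inA s a m x) * rho C P s a m x =
      ∑ l ∈ H.Lam s, ind (H.inA s a m x ∧ cls l (H.mm s a m x)) * rho C P s a m x := by
    intro m
    rw [← sum_mul, sum_cls]
    congr 1
    by_cases hA : H.inA s a m x
    · rw [ind_pos hA, ind_pos ⟨hA, hA.2⟩]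
    · rw [ind_neg hA, ind_neg fun h => hA h.1]
  have hG0 : ∀ m, 0 ≤ ∑ b ∈ Ico (P.b s m) (P.b s (m + 1)), C.G (a * 2 ^ s) (top s a) x b :=
    fun m => sum_nonneg fun b _ => C.G_nonneg (bot_le_top s a) x b
  have hl : ∀ l ∈ H.Lam s, 2 ^ s * ∑ m ∈ range (P.nb s),
      ind (H.inA s a m x ∧ cls l (H.mm s a m x)) * rho C P s a m x ≤
      (H.cM * ∑ m ∈ range (P.nb s), ind (H.inA s a m x ∧ cls l (H.mm s a m x)) *
          ∑ b ∈ Ico (P.b s m) (P.b s (m + 1)), C.G (a * 2 ^ s) (top s a) x b +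
        2 ^ s * H.L s * ∑ m ∈ range (P.nb s),
          ind (¬ H.inA s a m x ∧ cls l (H.mm s a m x)) * H.mm s a m x + H.Cap s a x l) +
      ∑ m ∈ range (P.nb s), ind (H.inA s a m x ∧ cls l (H.mm s a m x)) * H.loss s a x m +
      2 ^ s * ∑ m ∈ range (P.nb s), ind (H.inA s a m x ∧ cls l (H.mm s a m x)) *
        W.avg (top s a) (fun y => ind (¬ nuB C P s m (a * 2 ^ s) y ≤ 4 * (1 / 2 : ℝ) ^ l) *
          nuB C P s m (a * 2 ^ s) y) x := by
    intro l hl
    have e3b := H.h3b s h1 hS a ha x l hl (fun m => H.inA s a m x)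
    refine le_trans ?_ (add_le_add_left (add_le_add_left e3b _) _)
    rw [mul_sum, mul_sum, ← sum_add_distrib, ← sum_add_distrib]
    refine sum_le_sum fun m hm => ?_
    have hm' : m < P.nb s := mem_range.1 hm
    by_cases hA : H.inA s a m x ∧ cls l (H.mm s a m x)
    · have e3c := H.h3c s h1 hS a ha x l hl m hm' hA.2
      have hA' : H.inA s a m x ∧
        cls l (H.om s a x (P.b s m) - H.om s a x (P.b s (m + 1))) := hA
      rw [ind_pos hA, ind_pos hA', hsplit l m]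
      linarith
    · have hA' : ¬ (H.inA s a m x ∧
        cls l (H.om s a x (P.b s m) - H.om s a x (P.b s (m + 1)))) := hA
      rw [ind_neg hA, ind_neg hA']
      simp
  have hsum := sum_le_sum hl
  rw [← mul_sum, sum_comm] at hsum
  have e0 : ∑ m ∈ range (P.nb s), ind (H.inA s a m x) * rho C P s a m x =
      ∑ m ∈ range (P.nb s), ∑ l ∈ H.Lam s,
        ind (H.inA s a m x ∧ cls l (H.mm s a m x)) * rho C P s a m x :=
    sum_congr rfl fun m _ => hcl m
  rw [e0]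
  refine hsum.trans ?_
  simp only [sum_add_distrib]
  have q1 : ∑ l ∈ H.Lam s, H.cM * ∑ m ∈ range (P.nb s),
      ind (H.inA s a m x ∧ cls l (H.mm s a m x)) *
          ∑ b ∈ Ico (P.b s m) (P.b s (m + 1)), C.G (a * 2 ^ s) (top s a) x b ≤
      H.cM * ∑ m ∈ range (P.nb s), ind (H.inA s a m x) *
        ∑ b ∈ Ico (P.b s m) (P.b s (m + 1)), C.G (a * 2 ^ s) (top s a) x b := by
    rw [← mul_sum]
    refine mul_le_mul_of_nonneg_left ?_ H.cM_nn
    rw [sum_comm]
    refine sum_le_sum fun m _ => ?_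
    rw [← sum_mul, sum_cls]
    exact mul_le_mul_of_nonneg_right (ind_mono fun h => h.1) (hG0 m)
  have q2 : ∑ l ∈ H.Lam s, 2 ^ s * H.L s * ∑ m ∈ range (P.nb s),
      ind (¬ H.inA s a m x ∧ cls l (H.mm s a m x)) * H.mm s a m x =
      2 ^ s * H.L s * ∑ m ∈ range (P.nb s),
        ind (¬ H.inA s a m x ∧ H.act s a m x) * H.mm s a m x := by
    rw [← mul_sum, sum_comm]
    congr 1
    refine sum_congr rfl fun m _ => ?_
    rw [← sum_mul, sum_cls]
    rfl
  have q3 : ∑ l ∈ H.Lam s, ∑ m ∈ range (P.nb s),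
      ind (H.inA s a m x ∧ cls l (H.mm s a m x)) * H.loss s a x m ≤
      ∑ m ∈ range (P.nb s), H.loss s a x m := by
    rw [sum_comm]
    refine sum_le_sum fun m _ => ?_
    rw [← sum_mul, sum_cls]
    have := mul_le_mul_of_nonneg_right
      (ind_le_one (H.inA s a m x ∧ ∃ l ∈ H.Lam s, cls l (H.mm s a m x))) (H.loss_nn s a x m)
    rwa [one_mul] at this
  have q4 : ∑ l ∈ H.Lam s, 2 ^ s * ∑ m ∈ range (P.nb s),
      ind (H.inA s a m x ∧ cls l (H.mm s a m x)) *
        W.avg (top s a) (fun y => ind (¬ nuB C P s m (a * 2 ^ s) y ≤ 4 * (1 / 2 : ℝ) ^ l) *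
          nuB C P s m (a * 2 ^ s) y) x =
      2 ^ s * ∑ l ∈ H.Lam s, ∑ m ∈ range (P.nb s),
        ind (H.inA s a m x ∧ cls l (H.mm s a m x)) *
        W.avg (top s a) (fun y => ind (¬ nuB C P s m (a * 2 ^ s) y ≤ 4 * (1 / 2 : ℝ) ^ l) *
          nuB C P s m (a * 2 ^ s) y) x := by rw [← mul_sum]
  rw [q2, q4]
  linarith

/-- step 11 for one scale -/
lemma main_s {s : ℕ} (h1 : 1 ≤ s) (hS : s ≤ P.S) :
    2 ^ s * (∑ a ∈ range (P.na s), ∑ m ∈ range (P.nb s),
      W.E (fun x => ind (H.inA s a m x) * rho C P s a m x)) ≤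
      H.cM * H.GA s + 2 ^ s * H.L s * (6 * (GB0 C P s + GB1 C P s) + 5 / 4 * H.U s) +
        H.CapT s + H.LossT s + 2 ^ s * ((H.Lam s).card * (2 * (1 + GB1 C P s))) := by
  have hover : ∑ l ∈ H.Lam s, ∑ a ∈ range (P.na s), ∑ m ∈ range (P.nb s),
      W.E (fun x => ind (H.inA s a m x ∧ cls l (H.mm s a m x)) *
        W.avg (top s a) (fun y => ind (¬ nuB C P s m (a * 2 ^ s) y ≤ 4 * (1 / 2 : ℝ) ^ l) *
          nuB C P s m (a * 2 ^ s) y) x) ≤ (H.Lam s).card * (2 * (1 + GB1 C P s)) := by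
    calc _ ≤ ∑ _l ∈ H.Lam s, 2 * (1 + GB1 C P s) :=
          sum_le_sum fun l _ => H.over_cap h1 hS l
      _ = _ := by rw [sum_const, nsmul_eq_mul]
  have hmm : ∑ a ∈ range (P.na s), ∑ m ∈ range (P.nb s),
      W.E (fun x => ind (¬ H.inA s a m x ∧ H.act s a m x) * H.mm s a m x) ≤
      6 * (GB0 C P s + GB1 C P s) + 5 / 4 * H.U s := by
    calc _ ≤ ∑ a ∈ range (P.na s), ∑ m ∈ range (P.nb s),
          (6 * (W.E (fun x => C.G (a * 2 ^ s) (top s a) x (P.b s m)) +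
            W.E (fun x => C.G (a * 2 ^ s) (top s a) x (P.b s (m + 1)))) +
          5 / 4 * W.E (fun x => ind (H.bad s a m x) * nuB C P s m (top s a) x)) := by
          refine sum_le_sum fun a ha => sum_le_sum fun m _ => ?_
          rw [← Tr.E_add, ← Tr.E_const_mul, ← Tr.E_const_mul, ← Tr.E_add]
          exact Tr.E_mono fun x => H.pt_mm h1 hS (mem_range.1 ha) m x
      _ = _ := by
          simp only [sum_add_distrib, mul_add, ← mul_sum, sum_G_b0 C P hS, sum_G_b1 C P hS, U]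
  have hptE : ∀ a ∈ range (P.na s),
      2 ^ s * ∑ m ∈ range (P.nb s), W.E (fun x => ind (H.inA s a m x) * rho C P s a m x) ≤
      H.cM * ∑ m ∈ range (P.nb s), W.E (fun x => ind (H.inA s a m x) *
        ∑ b ∈ Ico (P.b s m) (P.b s (m + 1)), C.G (a * 2 ^ s) (top s a) x b) +
      2 ^ s * H.L s * ∑ m ∈ range (P.nb s),
        W.E (fun x => ind (¬ H.inA s a m x ∧ H.act s a m x) * H.mm s a m x) +
      W.E (fun x => ∑ l ∈ H.Lam s, H.Cap s a x l) +
      ∑ m ∈ range (P.nb s), W.E (fun x => H.loss s a x m) +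
      2 ^ s * ∑ l ∈ H.Lam s, ∑ m ∈ range (P.nb s),
        W.E (fun x => ind (H.inA s a m x ∧ cls l (H.mm s a m x)) *
        W.avg (top s a) (fun y => ind (¬ nuB C P s m (a * 2 ^ s) y ≤ 4 * (1 / 2 : ℝ) ^ l) *
          nuB C P s m (a * 2 ^ s) y) x) := by
    intro a ha
    simp only [← Tr.E_sum, ← Tr.E_const_mul, ← Tr.E_add]
    exact Tr.E_mono fun x => H.pt_main h1 hS (mem_range.1 ha) x
  have hs := sum_le_sum hptE
  simp only [sum_add_distrib, ← mul_sum] at hs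
  have hswap : ∑ a ∈ range (P.na s), ∑ l ∈ H.Lam s, ∑ m ∈ range (P.nb s),
        W.E (fun x => ind (H.inA s a m x ∧ cls l (H.mm s a m x)) *
        W.avg (top s a) (fun y => ind (¬ nuB C P s m (a * 2 ^ s) y ≤ 4 * (1 / 2 : ℝ) ^ l) *
          nuB C P s m (a * 2 ^ s) y) x) =
      ∑ l ∈ H.Lam s, ∑ a ∈ range (P.na s), ∑ m ∈ range (P.nb s),
      W.E (fun x => ind (H.inA s a m x ∧ cls l (H.mm s a m x)) *
        W.avg (top s a) (fun y => ind (¬ nuB C P s m (a * 2 ^ s) y ≤ 4 * (1 / 2 : ℝ) ^ l) *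
          nuB C P s m (a * 2 ^ s) y) x) := sum_comm
  rw [hswap] at hs
  have k1 : (0 : ℝ) ≤ 2 ^ s * H.L s := mul_nonneg (by positivity) (H.L_nn s)
  have k2 := mul_le_mul_of_nonneg_left hmm k1
  have k3 := mul_le_mul_of_nonneg_left hover (by positivity : (0 : ℝ) ≤ 2 ^ s)
  have k4 : H.GA s = ∑ a ∈ range (P.na s), ∑ m ∈ range (P.nb s),
      W.E (fun x => ind (H.inA s a m x) *
        ∑ b ∈ Ico (P.b s m) (P.b s (m + 1)), C.G (a * 2 ^ s) (top s a) x b) := rfl
  have k5 : H.CapT s = ∑ a ∈ range (P.na s), W.E (fun x => ∑ l ∈ H.Lam s, H.Cap s a x l) := rfl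
  have k6 : H.LossT s = ∑ a ∈ range (P.na s), ∑ m ∈ range (P.nb s),
      W.E (fun x => H.loss s a x m) := rfl
  rw [k4, k5, k6]
  linarith

/-- steps 4-11: the middle range of scale `s` -/
lemma T4_final {s : ℕ} (h1 : 1 ≤ s) (hS : s ≤ P.S) :
    T4 C P H.th H.th' s ≤ H.cM * H.GA s + 2 ^ s * GB1 C P s +
      2 ^ s * (1 + H.L s) * (6 * (GB0 C P s + GB1 C P s) + 5 / 4 * H.U s) +
        H.CapT s + H.LossT s + 2 ^ s * ((H.Lam s).card * (2 * (1 + GB1 C P s))) := by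
  have h4 := T4_le C P (th := H.th) (th' := H.th') hS
  have h5 : ∑ a ∈ range (P.na s), ∑ m ∈ range (P.nb s),
      W.E (fun x => ind (H.th s ≤ nuB C P s m (top s a) x ∧
        nuB C P s m (top s a) x ≤ H.th' s) * rho C P s a m x) ≤
      6 * (GB0 C P s + GB1 C P s) + 5 / 4 * H.U s +
      ∑ a ∈ range (P.na s), ∑ m ∈ range (P.nb s),
        W.E (fun x => ind (H.inA s a m x) * rho C P s a m x) := by
    calc _ ≤ ∑ a ∈ range (P.na s), ∑ m ∈ range (P.nb s),
          (6 * (W.E (fun x => C.G (a * 2 ^ s) (top s a) x (P.b s m)) +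
            W.E (fun x => C.G (a * 2 ^ s) (top s a) x (P.b s (m + 1)))) +
          5 / 4 * W.E (fun x => ind (H.bad s a m x) * nuB C P s m (top s a) x) +
          W.E (fun x => ind (H.inA s a m x) * rho C P s a m x)) := by
          refine sum_le_sum fun a ha => sum_le_sum fun m _ => ?_
          rw [← Tr.E_add, ← Tr.E_const_mul, ← Tr.E_const_mul, ← Tr.E_add, ← Tr.E_add]
          exact Tr.E_mono fun x => H.pt_rho h1 hS (mem_range.1 ha) m x
      _ = _ := by
          simp only [sum_add_distrib, mul_add, ← mul_sum, sum_G_b0 C P hS, sum_G_b1 C P hS, U]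
  have h6 := mul_le_mul_of_nonneg_left h5 (by positivity : (0 : ℝ) ≤ 2 ^ s)
  have h7 := H.main_s h1 hS
  have e : 2 ^ s * (6 * (GB0 C P s + GB1 C P s) + 5 / 4 * H.U s +
      ∑ a ∈ range (P.na s), ∑ m ∈ range (P.nb s),
        W.E (fun x => ind (H.inA s a m x) * rho C P s a m x)) =
      2 ^ s * (6 * (GB0 C P s + GB1 C P s) + 5 / 4 * H.U s) +
      2 ^ s * ∑ a ∈ range (P.na s), ∑ m ∈ range (P.nb s),
        W.E (fun x => ind (H.inA s a m x) * rho C P s a m x) := by ring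
  rw [e] at h6
  have e2 : 2 ^ s * (1 + H.L s) * (6 * (GB0 C P s + GB1 C P s) + 5 / 4 * H.U s) =
      2 ^ s * (6 * (GB0 C P s + GB1 C P s) + 5 / 4 * H.U s) +
      2 ^ s * H.L s * (6 * (GB0 C P s + GB1 C P s) + 5 / 4 * H.U s) := by ring
  rw [e2]
  linarith

end Hyp

end Vale.Agent.P315.MS607
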