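import Vale.Agent.P315.MS607.Main

/-!
P315, multi-scale accounting theorem, layer 6: every gain is used at most twice (step 6), and
the theorem for one grid.
-/

open Finset

namespace Vale.Agent.P315.MS607

variable {X : Type*} [Fintype X] {W : Tr X}

lemma Ico_sub_blocks (P : Gr) {s t : ℕ} (hst : s ≤ t) (m : ℕ) (f : ℕ → ℝ) :
    ∑ b ∈ Ico (P.b t m) (P.b t (m + 1)), f b =
      ∑ r ∈ range (16 ^ (t - s)),
        ∑ b ∈ Ico (P.b s (m * 16 ^ (t - s) + r)) (P.b s (m * 16 ^ (t - s) + r + 1)), f b := by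
  have key : ∀ K, ∑ r ∈ range K,
      ∑ b ∈ Ico (P.b s (m * 16 ^ (t - s) + r)) (P.b s (m * 16 ^ (t - s) + r + 1)), f b =
      ∑ b ∈ Ico (P.b s (m * 16 ^ (t - s))) (P.b s (m * 16 ^ (t - s) + K)), f b := by
    intro K
    induction K with
    | zero => simp
    | succ K ih =>
      rw [sum_range_succ, ih]
      refine sum_Ico_consecutive f ?_ (P.b_le _ _)
      unfold Gr.b
      have : m * 16 ^ (t - s) * P.D s ≤ (m * 16 ^ (t - s) + K) * P.D s :=
        Nat.mul_le_mul_right _ (Nat.le_add_right _ _)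
      omega
  rw [key]
  have e1 : P.b s (m * 16 ^ (t - s)) = P.b t m := by
    have := P.b_sub hst m 0
    simpa using this
  have e2 : P.b s (m * 16 ^ (t - s) + 16 ^ (t - s)) = P.b t (m + 1) := by
    have := P.b_sub hst (m + 1) 0
    rw [show m * 16 ^ (t - s) + 16 ^ (t - s) = (m + 1) * 16 ^ (t - s) + 0 by ring]
    simpa using this
  rw [e1, e2]

lemma E_mul_G_eq (C : Cv W) {s a b : ℕ} {φ : X → ℝ} (hφ : W.Meas (top s a) φ) :
    W.E (fun x => φ x * C.G (a * 2 ^ s) (top s a) x b) =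
      ∑ i ∈ range (2 ^ s), W.E (fun x => φ x * C.g (a * 2 ^ s + i) x b) := by
  rw [C.E_mul_G _ _ _ hφ]
  have h : ∀ i ∈ range (2 ^ s), W.E (fun x => φ x * C.g (a * 2 ^ s + i) x b) =
      (fun k => W.E (fun x => φ x * C.e k x b)) (a * 2 ^ s + i) -
      (fun k => W.E (fun x => φ x * C.e k x b)) (a * 2 ^ s + i + 1) := by
    intro i hi
    have hi' : i < 2 ^ s := mem_range.1 hi
    refine C.E_mul_g b (hφ.mono ?_)
    unfold top; rw [Nat.succ_mul]; omega
  rw [sum_congr rfl h, sum_cells (fun k => W.E (fun x => φ x * C.e k x b))]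
  simp only [top, Nat.succ_mul]

namespace Hyp

variable {C : Cv W} {P : Gr} (H : Hyp C P)

lemma GA_eq {s : ℕ} (hS : s ≤ P.S) :
    H.GA s = ∑ j ∈ range P.n, ∑ m ∈ range (P.nb 0),
      W.E (fun x => ind (H.inA s (j / 2 ^ s) (m / 16 ^ s) x) *
        ∑ b ∈ Ico (P.b 0 m) (P.b 0 (m + 1)), C.g j x b) := by
  rw [regroup P hS, GA]
  refine sum_congr rfl fun a _ => sum_congr rfl fun m _ => ?_
  have hm : W.Meas (top s a) (fun x => ind (H.inA s a m x)) :=
    meas_ind fun x y h => by rw [H.inA_iff h]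
  have h1 : W.E (fun x => ind (H.inA s a m x) *
      ∑ b ∈ Ico (P.b s m) (P.b s (m + 1)), C.G (a * 2 ^ s) (top s a) x b) =
      ∑ b ∈ Ico (P.b s m) (P.b s (m + 1)), ∑ i ∈ range (2 ^ s),
        W.E (fun x => ind (H.inA s a m x) * C.g (a * 2 ^ s + i) x b) := by
    simp only [mul_sum, Tr.E_sum]
    exact sum_congr rfl fun b _ => E_mul_G_eq C hm
  rw [h1, sum_comm]
  refine sum_congr rfl fun i hi => ?_
  have hi' : i < 2 ^ s := mem_range.1 hi
  have ha : (a * 2 ^ s + i) / 2 ^ s = a := by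
    rw [mul_comm, Nat.mul_add_div (by positivity), Nat.div_eq_of_lt hi', add_zero]
  rw [Ico_sub_blocks P (Nat.zero_le s) m, Nat.sub_zero]
  refine sum_congr rfl fun r hr => ?_
  have hr' : r < 16 ^ s := mem_range.1 hr
  have hmm : (m * 16 ^ s + r) / 16 ^ s = m := by
    rw [mul_comm, Nat.mul_add_div (by positivity), Nat.div_eq_of_lt hr', add_zero]
  rw [ha, hmm]
  simp only [mul_sum, Tr.E_sum]

lemma count_le {j m : ℕ} (hj : j < P.n) (x : X) :
    ∑ s ∈ Icc 1 P.S, ind (H.inA s (j / 2 ^ s) (m / 16 ^ s) x) ≤ 2 := by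
  classical
  set F := (Icc 1 P.S).filter (fun s => H.inA s (j / 2 ^ s) (m / 16 ^ s) x) with hF
  have h1 : ∑ s ∈ Icc 1 P.S, ind (H.inA s (j / 2 ^ s) (m / 16 ^ s) x) = (F.card : ℝ) := by
    rw [card_eq_sum_ones, Nat.cast_sum, hF, sum_filter]
    refine sum_congr rfl fun s _ => ?_
    rw [← ind_ite]
    split <;> simp
  have hno : ∀ s ∈ F, ∀ t ∈ F, ¬ s + 2 ≤ t := by
    intro s hs t ht hst
    obtain ⟨hs1, hs2⟩ := mem_filter.1 hs
    obtain ⟨ht1, ht2⟩ := mem_filter.1 ht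
    obtain ⟨t1, tS⟩ := mem_Icc.1 ht1
    have hta : j / 2 ^ t < P.na t := by
      rw [Nat.div_lt_iff_lt_mul (by positivity), P.na_mul tS]; exact hj
    have u := hs2.1.2 t hst tS
    rw [div_pow_sub 16 (by omega : s ≤ t), div_pow_sub 2 (by omega : s ≤ t)] at u
    have tb := H.tight_bounds t1 tS hta (m / 16 ^ t) x ht2.1.1
    have ab := H.act_bounds t1 tS (m / 16 ^ t) x ht2.2
    have hp := H.th_pos t
    have hp' := H.th'_nn t
    linarith [tb.1, tb.2, ab.1, ab.2]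
  rw [h1]
  rcases F.eq_empty_or_nonempty with h | h
  · rw [h]; simp
  · have hsub : F ⊆ {F.min' h, F.min' h + 1} := by
      intro s hs
      have l1 := F.min'_le s hs
      have l2 := hno _ (F.min'_mem h) s hs
      rw [mem_insert, mem_singleton]
      omega
    have := (card_le_card hsub).trans (card_le_two)
    exact_mod_cast this

lemma sum_GA_le : ∑ s ∈ Icc 1 P.S, H.GA s ≤
    2 * ∑ b ∈ Ico (P.b 0 0) (P.b 0 (P.nb 0)), gam C P b := by
  have e1 : ∑ s ∈ Icc 1 P.S, H.GA s = ∑ s ∈ Icc 1 P.S,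
      ∑ j ∈ range P.n, ∑ m ∈ range (P.nb 0),
      W.E (fun x => ind (H.inA s (j / 2 ^ s) (m / 16 ^ s) x) *
        ∑ b ∈ Ico (P.b 0 m) (P.b 0 (m + 1)), C.g j x b) :=
    sum_congr rfl fun s hs => H.GA_eq (mem_Icc.1 hs).2
  rw [e1, ← sum3_comm]
  have e2 : ∀ j ∈ range P.n, ∀ m, ∑ s ∈ Icc 1 P.S,
      W.E (fun x => ind (H.inA s (j / 2 ^ s) (m / 16 ^ s) x) *
        ∑ b ∈ Ico (P.b 0 m) (P.b 0 (m + 1)), C.g j x b) ≤
      2 * ∑ b ∈ Ico (P.b 0 m) (P.b 0 (m + 1)), W.E (fun x => C.g j x b) := by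
    intro j hj m
    rw [← Tr.E_sum, ← Tr.E_sum, ← Tr.E_const_mul]
    refine Tr.E_mono fun x => ?_
    rw [← sum_mul]
    exact mul_le_mul_of_nonneg_right (H.count_le (mem_range.1 hj) x)
      (sum_nonneg fun b _ => C.g_nonneg j x b)
  calc _ ≤ ∑ j ∈ range P.n, ∑ m ∈ range (P.nb 0),
        2 * ∑ b ∈ Ico (P.b 0 m) (P.b 0 (m + 1)), W.E (fun x => C.g j x b) :=
        sum_le_sum fun j hj => sum_le_sum fun m _ => e2 j hj m
    _ = 2 * ∑ m ∈ range (P.nb 0), ∑ b ∈ Ico (P.b 0 m) (P.b 0 (m + 1)),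
          ∑ j ∈ range P.n, W.E (fun x => C.g j x b) := by
        simp only [← mul_sum]
        congr 1
        rw [sum_comm]
        exact sum_congr rfl fun m _ => sum_comm
    _ = 2 * ∑ m ∈ range (P.nb 0), ∑ b ∈ Ico (P.b 0 m) (P.b 0 (m + 1)), gam C P b := by
        congr 1
        refine sum_congr rfl fun m _ => sum_congr rfl fun b _ => ?_
        have h : ∀ j, W.E (fun x => C.g j x b) =
            (fun k => W.E (fun x => C.e k x b)) (0 + j) -
            (fun k => W.E (fun x => C.e k x b)) (0 + j + 1) := by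
          intro j
          have := C.E_mul_g (j := j) b (φ := fun _ => 1) (Tr.Meas.const 1)
          simpa using this
        rw [sum_congr rfl fun j _ => h j, sum_cells (fun k => W.E (fun x => C.e k x b))]
        simp [gam]
    _ = _ := by
        congr 1
        have := Ico_sub_blocks P (Nat.zero_le 0) 0 (fun b => gam C P b)
        have key : ∀ K, ∑ r ∈ range K,
            ∑ b ∈ Ico (P.b 0 r) (P.b 0 (r + 1)), gam C P b =
            ∑ b ∈ Ico (P.b 0 0) (P.b 0 K), gam C P b := by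
          intro K
          induction K with
          | zero => simp
          | succ K ih =>
            rw [sum_range_succ, ih]
            refine sum_Ico_consecutive _ ?_ (P.b_le _ _)
            unfold Gr.b
            simp
        exact key _

/-- error terms at one scale -/
noncomputable def Er (s : ℕ) : ℝ :=
  2 ^ s * GB1 C P s +
      2 ^ s * (1 + H.L s) * (6 * (GB0 C P s + GB1 C P s) +
        5 / 4 * ∑ t ∈ Icc (s + 2) P.S, 2 ^ (t - s) * (2 * (1 + GB1 C P t))) +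
      2 ^ s * ((H.Lam s).card * (2 * (1 + GB1 C P s)))

/-- **Accounting theorem for one grid.** -/
theorem one_grid {ep : ℕ → ℝ} (hep : ∀ s, 0 ≤ ep s)
    (h16 : ∀ s < P.S, 16 * H.th s ≤ ep (s + 1) * H.th' (s + 1)) :
    Mo C P ≤ 2 * H.cM * ∑ b ∈ Ico (P.b 0 0) (P.b 0 (P.nb 0)), gam C P b +
      T0 C P H.th + (P.n * P.Q * H.th P.S + 2 ^ P.S * GB0 C P P.S) +
      ∑ s ∈ range P.S, (ep (s + 1) * P.n + 2 ^ s * GB0 C P s) +
      ∑ s ∈ Icc 1 P.S, (H.Er s + H.CapT s + H.LossT s) := by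
  have h0 := mass_split C P H.th H.th'
  have h1 := Tinf_le C P (th := H.th) (H.th_pos P.S).le
  rw [sum_add_distrib] at h0
  have h3 : ∑ s ∈ range P.S, T3 C P H.th H.th' s ≤
      ∑ s ∈ range P.S, (ep (s + 1) * P.n + 2 ^ s * GB0 C P s) :=
    sum_le_sum fun s hs => T3_le C P (mem_range.1 hs) (H.th_pos s).le (hep _)
      (h16 s (mem_range.1 hs))
  have e4 : ∑ s ∈ range P.S, T4 C P H.th H.th' (s + 1) =
      ∑ s ∈ Icc 1 P.S, T4 C P H.th H.th' s := by
    rw [range_eq_Ico, sum_Ico_add' (fun s => T4 C P H.th H.th' s) 0 P.S 1, zero_add]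
    rfl
  have h4 : ∑ s ∈ Icc 1 P.S, T4 C P H.th H.th' s ≤
      ∑ s ∈ Icc 1 P.S, (H.cM * H.GA s + (H.Er s + H.CapT s + H.LossT s)) := by
    refine sum_le_sum fun s hs => ?_
    obtain ⟨s1, sS⟩ := mem_Icc.1 hs
    have a1 := H.T4_final s1 sS
    have a2 := H.U_le s1 sS
    have a3 : (0 : ℝ) ≤ 2 ^ s * (1 + H.L s) * (5 / 4) := by
      have := H.L_nn s
      positivity
    have a4 := mul_le_mul_of_nonneg_left a2 a3
    unfold Er
    have e : 2 ^ s * (1 + H.L s) * (6 * (GB0 C P s + GB1 C P s) + 5 / 4 * H.U s) =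
      2 ^ s * (1 + H.L s) * (6 * (GB0 C P s + GB1 C P s)) +
        2 ^ s * (1 + H.L s) * (5 / 4) * H.U s := by ring
    rw [e] at a1
    have e' : 2 ^ s * (1 + H.L s) * (6 * (GB0 C P s + GB1 C P s) +
        5 / 4 * ∑ t ∈ Icc (s + 2) P.S, 2 ^ (t - s) * (2 * (1 + GB1 C P t))) =
      2 ^ s * (1 + H.L s) * (6 * (GB0 C P s + GB1 C P s)) +
        2 ^ s * (1 + H.L s) * (5 / 4) *
          ∑ t ∈ Icc (s + 2) P.S, 2 ^ (t - s) * (2 * (1 + GB1 C P t)) := by ring
    rw [e']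
    linarith
  rw [sum_add_distrib, ← mul_sum] at h4
  have h5 := mul_le_mul_of_nonneg_left H.sum_GA_le H.cM_nn
  rw [e4] at h0
  linarith

end Hyp

end Vale.Agent.P315.MS607
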