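import Vale.Agent.P315.MS607.Core

/-!
P315, multi-scale accounting theorem, layer 2: decomposition of the mass by the smallest
heavy scale (steps 1-4 of helper728's note).
-/

open Finset

namespace Vale.Agent.P315.MS607

variable {X : Type*} [Fintype X] {W : Tr X} (C : Cv W) (P : Gr)

/-- top level of the group `a` of scale `s` -/
def top (s a : ℕ) : ℕ := (a + 1) * 2 ^ s

lemma div_sixteen (s m : ℕ) : m / 16 ^ s / 16 = m / 16 ^ (s + 1) := by
  rw [Nat.div_div_eq_div_mul, pow_succ]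

lemma div_two (s m : ℕ) : m / 2 ^ s / 2 = m / 2 ^ (s + 1) := by
  rw [Nat.div_div_eq_div_mul, pow_succ]

lemma div_pow_sub (B : ℕ) {s t : ℕ} (h : s ≤ t) (m : ℕ) : m / B ^ s / B ^ (t - s) = m / B ^ t := by
  rw [Nat.div_div_eq_div_mul, ← pow_add, Nat.add_sub_cancel' h]

lemma top_le {s t : ℕ} (h : s ≤ t) (a : ℕ) : top s a ≤ top t (a / 2 ^ (t - s)) := by
  unfold top
  have h1 : (2 : ℕ) ^ t = 2 ^ (t - s) * 2 ^ s := by rw [← pow_add, Nat.sub_add_cancel h]
  rw [h1, ← mul_assoc]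
  refine Nat.mul_le_mul_right _ ?_
  have h2 : a < (a / 2 ^ (t - s) + 1) * 2 ^ (t - s) := by
    rw [mul_comm]
    exact Nat.lt_mul_div_succ a (by positivity)
  exact h2

lemma sum3_comm (A B D : Finset ℕ) (f : ℕ → ℕ → ℕ → ℝ) :
    ∑ j ∈ A, ∑ m ∈ B, ∑ s ∈ D, f j m s = ∑ s ∈ D, ∑ j ∈ A, ∑ m ∈ B, f j m s := by
  rw [sum_congr rfl fun j _ => sum_comm, sum_comm]

/-- regrouping of the levels and of the smallest blocks into scale `s` -/
lemma regroup {s : ℕ} (hs : s ≤ P.S) (F : ℕ → ℕ → ℝ) :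
    ∑ j ∈ range P.n, ∑ m ∈ range (P.nb 0), F j m =
      ∑ a ∈ range (P.na s), ∑ m ∈ range (P.nb s), ∑ i ∈ range (2 ^ s), ∑ r ∈ range (16 ^ s),
        F (a * 2 ^ s + i) (m * 16 ^ s + r) := by
  rw [← P.na_mul hs, sum_range_mul']
  refine sum_congr rfl fun a _ => ?_
  rw [sum_comm]
  rw [← P.nb_mul hs, sum_range_mul' (P.nb s) (16 ^ s)]
  refine sum_congr rfl fun m _ => ?_
  rw [sum_comm]

lemma E_phi_nuB {s a m i : ℕ} (hi : i < 2 ^ s) {φ : X → ℝ} (mφ : W.Meas (top s a) φ)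
    (φ0 : ∀ x, 0 ≤ φ x) :
    W.E (fun x => φ x * nuB C P s m (a * 2 ^ s + i) x) ≤
      W.E (fun x => φ x * (nuB C P s m (top s a) x + C.G (a * 2 ^ s) (top s a) x (P.b s m))) := by
  have l1 : a * 2 ^ s ≤ a * 2 ^ s + i := Nat.le_add_right _ _
  have l2 : a * 2 ^ s + i ≤ top s a := by unfold top; rw [Nat.succ_mul]; omega
  have c1 := C.chain l1 (P.b s m) (mφ.mono l2) φ0
  have c2 := C.chain l2 (P.b s (m + 1)) mφ φ0
  have e1 : W.E (fun x => φ x * nuB C P s m (a * 2 ^ s + i) x) =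
      W.E (fun x => φ x * C.e (a * 2 ^ s + i) x (P.b s m)) -
        W.E (fun x => φ x * C.e (a * 2 ^ s + i) x (P.b s (m + 1))) := by
    rw [← Tr.E_sub]
    congr 1
    funext x
    simp only [nuB, Cv.nu]
    ring
  have e2 : W.E (fun x => φ x * (nuB C P s m (top s a) x +
      C.G (a * 2 ^ s) (top s a) x (P.b s m))) =
      W.E (fun x => φ x * C.e (a * 2 ^ s) x (P.b s m)) -
        W.E (fun x => φ x * C.e (top s a) x (P.b s (m + 1))) := by
    have h := C.E_mul_G (a * 2 ^ s) (top s a) (P.b s m) mφ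
    have h2 : W.E (fun x => φ x * (nuB C P s m (top s a) x +
        C.G (a * 2 ^ s) (top s a) x (P.b s m))) =
        W.E (fun x => φ x * C.e (top s a) x (P.b s m)) -
        W.E (fun x => φ x * C.e (top s a) x (P.b s (m + 1))) +
        W.E (fun x => φ x * C.G (a * 2 ^ s) (top s a) x (P.b s m)) := by
      rw [← Tr.E_sub, ← Tr.E_add]
      congr 1
      funext x
      simp only [nuB, Cv.nu]
      ring
    rw [h2, h]
    ring
  rw [e1, e2]
  linarith

/-- mass of the elements weighted by a function of their box of scale `s` -/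
lemma group_le {s : ℕ} (hs : s ≤ P.S) (φ : ℕ → ℕ → X → ℝ)
    (mφ : ∀ a m, W.Meas (top s a) (φ a m)) (φ0 : ∀ a m x, 0 ≤ φ a m x) :
    ∑ j ∈ range P.n, ∑ m ∈ range (P.nb 0),
        W.E (fun x => φ (j / 2 ^ s) (m / 16 ^ s) x * nuB C P 0 m j x) ≤
      ∑ a ∈ range (P.na s), ∑ m ∈ range (P.nb s), (2 : ℝ) ^ s *
        W.E (fun x => φ a m x *
          (nuB C P s m (top s a) x + C.G (a * 2 ^ s) (top s a) x (P.b s m))) := by
  rw [regroup P hs]
  refine sum_le_sum fun a _ => sum_le_sum fun m _ => ?_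
  have h1 : ∀ i ∈ range (2 ^ s), ∑ r ∈ range (16 ^ s),
      W.E (fun x => φ ((a * 2 ^ s + i) / 2 ^ s) ((m * 16 ^ s + r) / 16 ^ s) x *
        nuB C P 0 (m * 16 ^ s + r) (a * 2 ^ s + i) x) =
      W.E (fun x => φ a m x * nuB C P s m (a * 2 ^ s + i) x) := by
    intro i hi
    have hi' : i < 2 ^ s := mem_range.1 hi
    have ha : (a * 2 ^ s + i) / 2 ^ s = a := by
      rw [mul_comm, Nat.mul_add_div (by positivity), Nat.div_eq_of_lt hi', add_zero]
    rw [← Tr.E_sum]
    congr 1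
    funext x
    rw [← sum_sub_blocks C P (Nat.zero_le s) m (a * 2 ^ s + i) x, Nat.sub_zero, mul_sum]
    refine sum_congr rfl fun r hr => ?_
    have hr' : r < 16 ^ s := mem_range.1 hr
    have hm : (m * 16 ^ s + r) / 16 ^ s = m := by
      rw [mul_comm, Nat.mul_add_div (by positivity), Nat.div_eq_of_lt hr', add_zero]
    rw [ha, hm]
  rw [sum_congr rfl h1]
  calc _ ≤ ∑ _i ∈ range (2 ^ s), W.E (fun x => φ a m x *
          (nuB C P s m (top s a) x + C.G (a * 2 ^ s) (top s a) x (P.b s m))) :=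
        sum_le_sum fun i hi => E_phi_nuB C P (mem_range.1 hi) (mφ a m) (φ0 a m)
    _ = _ := by rw [sum_const, card_range, nsmul_eq_mul]; push_cast; rfl

/-- sum of the gains at the first indices of the blocks of scale `s` -/
noncomputable def GB0 (s : ℕ) : ℝ := ∑ m ∈ range (P.nb s), gam C P (P.b s m)

/-- sum of the gains at the ends of the blocks of scale `s` -/
noncomputable def GB1 (s : ℕ) : ℝ := ∑ m ∈ range (P.nb s), gam C P (P.b s (m + 1))

lemma sum_G_b0 {s : ℕ} (hs : s ≤ P.S) :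
    ∑ a ∈ range (P.na s), ∑ m ∈ range (P.nb s),
      W.E (fun x => C.G (a * 2 ^ s) (top s a) x (P.b s m)) = GB0 C P s := by
  rw [sum_comm]
  exact sum_congr rfl fun m _ => sum_E_G C P hs _

lemma sum_G_b1 {s : ℕ} (hs : s ≤ P.S) :
    ∑ a ∈ range (P.na s), ∑ m ∈ range (P.nb s),
      W.E (fun x => C.G (a * 2 ^ s) (top s a) x (P.b s (m + 1))) = GB1 C P s := by
  rw [sum_comm]
  exact sum_congr rfl fun m _ => sum_E_G C P hs _

lemma GB0_nonneg (s : ℕ) : 0 ≤ GB0 C P s := sum_nonneg fun _ _ => gam_nonneg C P _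
lemma GB1_nonneg (s : ℕ) : 0 ≤ GB1 C P s := sum_nonneg fun _ _ => gam_nonneg C P _

/-- the box of scale `s` of the element `(j, m, x)` -/
noncomputable def nuT (s j m : ℕ) (x : X) : ℝ :=
  nuB C P s (m / 16 ^ s) (top s (j / 2 ^ s)) x

open Classical in
/-- indicator with real values -/
noncomputable def ind (p : Prop) : ℝ := if p then 1 else 0

lemma ind_nonneg (p : Prop) : 0 ≤ ind p := by unfold ind; split <;> norm_num
lemma ind_le_one (p : Prop) : ind p ≤ 1 := by unfold ind; split <;> norm_num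
lemma ind_pos {p : Prop} (h : p) : ind p = 1 := by unfold ind; rw [if_pos h]
lemma ind_neg {p : Prop} (h : ¬ p) : ind p = 0 := by unfold ind; rw [if_neg h]
lemma ind_not (p : Prop) : ind (¬ p) = 1 - ind p := by
  by_cases h : p
  · rw [ind_pos h, ind_neg (not_not.2 h)]; ring
  · rw [ind_neg h, ind_pos h]; ring

lemma meas_ind {j : ℕ} {p : X → Prop} (h : ∀ x y, W.q j x = W.q j y → (p x ↔ p y)) :
    W.Meas j (fun x => ind (p x)) := fun x y hxy => by
  show ind (p x) = ind (p y)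
  by_cases hp : p x
  · rw [ind_pos hp, ind_pos ((h x y hxy).1 hp)]
  · rw [ind_neg hp, ind_neg fun h' => hp ((h x y hxy).2 h')]

lemma meas_iff {j : ℕ} {f : X → ℝ} (hf : W.Meas j f) (c : ℝ) :
    ∀ x y, W.q j x = W.q j y → (c ≤ f x ↔ c ≤ f y) := fun x y h => by rw [hf x y h]

/-- total mass in the range of the grid -/
noncomputable def Mo : ℝ := ∑ j ∈ range P.n, ∑ m ∈ range (P.nb 0), W.E (nuB C P 0 m j)

/-- mass of the elements whose box of scale `0` (parent!) is heavy -/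
noncomputable def T0 (th : ℕ → ℝ) : ℝ := ∑ j ∈ range P.n, ∑ m ∈ range (P.nb 0),
  W.E (fun x => ind (th 0 ≤ nuB C P 0 m (j + 1) x) * nuB C P 0 m j x)

lemma cover (v : ℝ) (hv : 0 ≤ v) (h : ℕ → Prop) (S : ℕ) :
    v ≤ ind (h 0) * v + ind (¬ h S) * v + ∑ s ∈ range S, ind (¬ h s) * ind (h (s + 1)) * v := by
  have key : 1 ≤ ind (h 0) + ind (¬ h S) + ∑ s ∈ range S, ind (¬ h s) * ind (h (s + 1)) := by
    induction S with
    | zero =>
      simp only [range_zero, sum_empty, add_zero, ind_not]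
      linarith
    | succ S ih =>
      rw [sum_range_succ]
      have h1 : ind (¬ h S) ≤ ind (¬ h (S + 1)) + ind (¬ h S) * ind (h (S + 1)) := by
        rw [ind_not (h (S + 1))]
        have a1 := ind_le_one (¬ h S)
        have a2 := ind_le_one (h (S + 1))
        nlinarith [mul_nonneg (sub_nonneg.2 a1) (sub_nonneg.2 a2)]
      linarith
  calc v = 1 * v := (one_mul v).symm
    _ ≤ (ind (h 0) + ind (¬ h S) + ∑ s ∈ range S, ind (¬ h s) * ind (h (s + 1))) * v :=
        mul_le_mul_of_nonneg_right key hv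
    _ = _ := by rw [add_mul, add_mul, sum_mul]

/-- mass of the elements of a large class -/
noncomputable def T3 (th th' : ℕ → ℝ) (s : ℕ) : ℝ :=
  ∑ j ∈ range P.n, ∑ m ∈ range (P.nb 0),
    W.E (fun x => ind (¬ th s ≤ nuT C P s j m x) * ind (¬ nuT C P (s + 1) j m x ≤ th' (s + 1)) *
      nuB C P 0 m j x)

/-- mass of the elements whose box of scale `s` is in the middle range -/
noncomputable def T4 (th th' : ℕ → ℝ) (s : ℕ) : ℝ :=
  ∑ j ∈ range P.n, ∑ m ∈ range (P.nb 0),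
    W.E (fun x => ind (th s ≤ nuT C P s j m x ∧ nuT C P s j m x ≤ th' s) * nuB C P 0 m j x)

/-- light at the largest scale -/
noncomputable def Tinf (th : ℕ → ℝ) : ℝ :=
  ∑ j ∈ range P.n, ∑ m ∈ range (P.nb 0),
    W.E (fun x => ind (¬ th P.S ≤ nuT C P P.S j m x) * nuB C P 0 m j x)

theorem mass_split (th th' : ℕ → ℝ) :
    Mo C P ≤ T0 C P th + Tinf C P th +
      ∑ s ∈ range P.S, (T3 C P th th' s + T4 C P th th' (s + 1)) := by
  have hpt : ∀ j m, W.E (nuB C P 0 m j) ≤
      W.E (fun x => ind (th 0 ≤ nuB C P 0 m (j + 1) x) * nuB C P 0 m j x) +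
      W.E (fun x => ind (¬ th P.S ≤ nuT C P P.S j m x) * nuB C P 0 m j x) +
      ∑ s ∈ range P.S, (W.E (fun x => ind (¬ th s ≤ nuT C P s j m x) *
          ind (¬ nuT C P (s + 1) j m x ≤ th' (s + 1)) * nuB C P 0 m j x) +
        W.E (fun x => ind (th (s + 1) ≤ nuT C P (s + 1) j m x ∧
          nuT C P (s + 1) j m x ≤ th' (s + 1)) * nuB C P 0 m j x)) := by
    intro j m
    simp only [← Tr.E_add, ← Tr.E_sum]
    refine Tr.E_mono fun x => ?_
    have h := cover (nuB C P 0 m j x) (nuB_nonneg C P 0 m j x)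
      (fun s => th s ≤ nuT C P s j m x) P.S
    have e0 : nuT C P 0 j m x = nuB C P 0 m (j + 1) x := by
      simp only [nuT, top, pow_zero, Nat.div_one, mul_one]
    simp only [e0] at h
    refine h.trans (add_le_add_right (sum_le_sum fun s _ => ?_) _)
    have v0 := nuB_nonneg C P 0 m j x
    rw [← add_mul]
    refine mul_le_mul_of_nonneg_right ?_ v0
    by_cases h2 : nuT C P (s + 1) j m x ≤ th' (s + 1)
    · by_cases h3 : th (s + 1) ≤ nuT C P (s + 1) j m x
      · rw [ind_pos h3, ind_pos (p := _ ∧ _) ⟨h3, h2⟩]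
        have := ind_le_one (¬ th s ≤ nuT C P s j m x)
        have := ind_nonneg (¬ th s ≤ nuT C P s j m x)
        have := ind_nonneg (¬ nuT C P (s + 1) j m x ≤ th' (s + 1))
        nlinarith
      · rw [ind_neg h3, mul_zero]
        exact add_nonneg (mul_nonneg (ind_nonneg _) (ind_nonneg _)) (ind_nonneg _)
    · rw [ind_pos (p := ¬ nuT C P (s + 1) j m x ≤ th' (s + 1)) h2, mul_one]
      have a1 := ind_le_one (th (s + 1) ≤ nuT C P (s + 1) j m x)
      have a2 := ind_nonneg (¬ th s ≤ nuT C P s j m x)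
      have a3 := ind_nonneg (th (s + 1) ≤ nuT C P (s + 1) j m x ∧
          nuT C P (s + 1) j m x ≤ th' (s + 1))
      nlinarith
  calc Mo C P ≤ ∑ j ∈ range P.n, ∑ m ∈ range (P.nb 0), _ :=
        sum_le_sum fun j _ => sum_le_sum fun m _ => hpt j m
    _ = _ := by
        simp only [sum_add_distrib, T0, Tinf, T3, T4]
        congr 1
        congr 1
        · exact sum3_comm _ _ _ _
        · exact sum3_comm _ _ _ _

end Vale.Agent.P315.MS607
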